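import Vale.Agent.P290.H561.IPModel

/-!
# P290 / H561: local intersection multiplicity `≥` product of the orders
-/

set_option linter.unusedVariables false
set_option linter.unusedSectionVars false

open scoped ContDiff Topology ComplexConjugate ComplexOrder Matrix
open MeasureTheory Set Filter Metric Asymptotics
open Vale.Agent.P267.FL (C2 dz dzb)

noncomputable section

namespace Vale.Agent.P290.H561

theorem psm_upper {m : ℕ} (hm : 0 < m) {f : C2 → ℂ} {Cf : ℝ} (hCf : 1 ≤ Cf) {z p : C2}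
    (hz : z ≠ p) (hb : ‖f z‖ ≤ Cf * ‖z - p‖ ^ m) (T : ℝ) :
    psm m T f z ≤ max (2 * Real.log Cf + 2 * Real.log ‖z - p‖) (-(T / m)) + 1 := by
  have hm' : (1 : ℝ) ≤ m := by exact_mod_cast hm
  have hm0 : (0 : ℝ) < m := by exact_mod_cast hm
  have h0 : 0 < ‖z - p‖ := norm_pos_iff.2 (sub_ne_zero.2 hz)
  have hlC : 0 ≤ Real.log Cf := Real.log_nonneg hCf
  set A := 2 * Real.log Cf + 2 * Real.log ‖z - p‖ with hA
  have h1 : psi T f z ≤ max (m * A) (-T) + 1 := by
    apply KT_le_of_log_le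
    intro h3
    have h4 : 0 < ‖f z‖ := norm_pos_iff.2 (Complex.normSq_pos.1 h3)
    have h5 : nsq f z = ‖f z‖ ^ 2 := Complex.normSq_eq_norm_sq _
    rw [h5, Real.log_pow]
    have h6 := Real.log_le_log h4 hb
    rw [Real.log_mul (by positivity) (by positivity), Real.log_pow] at h6
    push_cast
    rw [hA]
    nlinarith
  have h2 : max (m * A) (-T) ≤ m * max A (-(T / m)) := by
    apply max_le
    · exact mul_le_mul_of_nonneg_left (le_max_left _ _) hm0.le
    · have h3 : -T = m * (-(T / m)) := by field_simp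
      rw [h3]
      exact mul_le_mul_of_nonneg_left (le_max_right _ _) hm0.le
  have h3 : psi T f z ≤ m * (max A (-(T / m)) + 1) := by nlinarith
  unfold psm
  rw [inv_mul_le_iff₀ hm0]
  exact h3

theorem exists_bound {p : C2} {f : C2 → ℂ} {m : ℕ} (h : f =O[𝓝 p] fun z => ‖z - p‖ ^ m) :
    ∃ Cf : ℝ, 1 ≤ Cf ∧ ∃ rf > 0, ∀ z ∈ ball p rf, ‖f z‖ ≤ Cf * ‖z - p‖ ^ m := by
  obtain ⟨c, hc⟩ := h.bound
  rw [Metric.eventually_nhds_iff_ball] at hc
  obtain ⟨rf, hrf, h1⟩ := hc
  refine ⟨max c 1, le_max_right _ _, rf, hrf, fun z hz => (h1 z hz).trans ?_⟩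
  rw [norm_pow, norm_norm]
  exact mul_le_mul_of_nonneg_right (le_max_left _ _) (by positivity)

theorem rM_le {U V : C2 → ℝ} {z : C2} {a : ℝ} (hU : U z ≤ a) (hV : V z ≤ a) :
    rM U V z ≤ a + 1 := (rmax_le _ _).trans (by have := max_le hU hV; linarith)

/-- affine change of the model function -/
def Lm (p : C2) (S lam c : ℝ) (z : C2) : ℝ := lam * vm p S z - c

theorem Lm_contDiffAt (p : C2) (S lam c : ℝ) (z : C2) : ContDiffAt ℝ ∞ (Lm p S lam c) z :=
  (contDiffAt_const.mul (vm_contDiffAt p S z)).sub contDiffAt_const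

theorem H_Lm (p : C2) (S lam c : ℝ) (z : C2) :
    H (Lm p S lam c) z = (lam : ℂ) • H (vm p S) z := by
  have h1 : Lm p S lam c = fun y => lam * vm p S y - (fun _ => c) y := rfl
  have h2 : ContDiffAt ℝ ∞ (fun y => lam * vm p S y) z :=
    contDiffAt_const.mul (vm_contDiffAt p S z)
  rw [h1, H_sub h2 contDiffAt_const, H_const, sub_zero, H_const_mul _ (vm_contDiffAt p S z)]

theorem mx_Lm (p : C2) (S lam c : ℝ) (z : C2) :
    mx (Lm p S lam c) (Lm p S lam c) z = lam ^ 2 * mx (vm p S) (vm p S) z := by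
  unfold mx
  rw [H_Lm, mxd_smul_left, mxd_smul_right, ← mul_assoc, ← Complex.ofReal_mul,
    Complex.re_ofReal_mul]
  ring

/-- **Local theorem**, basic form. -/
theorem loc_basic {p : C2} {r : ℝ} (hr : 0 < r) {f g : C2 → ℂ}
    (hf : ∀ z ∈ closedBall p r, AnalyticAt ℂ f z) (hg : ∀ z ∈ closedBall p r, AnalyticAt ℂ g z)
    (h0 : ∀ z ∈ closedBall p r, f z = 0 → g z = 0 → z = p) {m n : ℕ} (hm : 0 < m) (hn : 0 < n)
    (hfO : f =O[𝓝 p] fun z => ‖z - p‖ ^ m) (hgO : g =O[𝓝 p] fun z => ‖z - p‖ ^ n)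
    {lam : ℝ} (hl0 : 0 < lam) (hl1 : lam < 1) :
    ∃ T₀ : ℝ, ∀ T, T₀ < T → IntegrableOn (mx (psi T f) (psi T g)) (ball p r) ∧
      lam ^ 2 * (m * n * Real.pi ^ 2) ≤ ∫ z in ball p r, mx (psi T f) (psi T g) z := by
  obtain ⟨C, hC, hlow, hzone⟩ := exists_zone hr hf hg h0 hm hn
  obtain ⟨Cf, hCf, rf, hrf, hbf⟩ := exists_bound hfO
  obtain ⟨Cg, hCg, rg, hrg, hbg⟩ := exists_bound hgO
  set T' := C + 4 + 2 * |Real.log r| with hT'
  set C1 := 2 * Real.log (max Cf Cg) with hC1
  have hCm : 1 ≤ max Cf Cg := hCf.trans (le_max_left _ _)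
  set E := -(T' + 4 + C1) / (2 * (1 - lam)) with hE
  set r₁ := min (min (r / 2) (min rf rg)) (Real.exp E) with hr₁
  have hr₁0 : 0 < r₁ := lt_min (lt_min (by linarith) (lt_min hrf hrg)) (Real.exp_pos _)
  have hr₁r : r₁ ≤ r / 2 := (min_le_left _ _).trans (min_le_left _ _)
  have hr₁f : r₁ ≤ rf := (min_le_left _ _).trans ((min_le_right _ _).trans (min_le_left _ _))
  have hr₁g : r₁ ≤ rg := (min_le_left _ _).trans ((min_le_right _ _).trans (min_le_right _ _))
  have hr₁E : Real.log r₁ ≤ E := by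
    rw [← Real.log_exp E]
    exact Real.log_le_log hr₁0 (min_le_right _ _)
  obtain ⟨S₀, hS₀⟩ := vm_mass (p := p) hr₁0
  set S := max S₀ 0 + 1 with hS
  obtain ⟨iv, ev⟩ := hS₀ S (by rw [hS]; have := le_max_left S₀ 0; linarith)
  have hS0 : 0 ≤ S := by rw [hS]; have := le_max_right S₀ 0; linarith
  have hm0 : (0 : ℝ) < m := by exact_mod_cast hm
  have hn0 : (0 : ℝ) < n := by exact_mod_cast hn
  set Q := 3 + T' - 2 * lam * Real.log (r₁ / 2) with hQ
  refine ⟨max (max (m * (C + 1) + 1) (n * (C + 1) + 1)) (max (m * Q) (n * Q)), fun T hT => ?_⟩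
  rw [max_lt_iff, max_lt_iff, max_lt_iff] at hT
  obtain ⟨⟨hT1, hT2⟩, hT3, hT4⟩ := hT
  set U := psm m T f with hU
  set V := psm n T g with hV
  have hBc : ball p r ⊆ closedBall p r := ball_subset_closedBall
  have sU : ∀ z ∈ ball p r, ContDiffAt ℝ ∞ U z := fun z hz => psm_contDiffAt m T (hf z (hBc hz))
  have sV : ∀ z ∈ ball p r, ContDiffAt ℝ ∞ V z := fun z hz => psm_contDiffAt n T (hg z (hBc hz))
  have hK : IsCompact (closedBall p (r / 2)) := isCompact_closedBall p _
  have hKB : closedBall p (r / 2) ⊆ ball p r := closedBall_subset_ball (by linarith)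
  have hann : ∀ z ∈ ball p r \ closedBall p (r / 2), z ∈ closedBall p r \ ball p (r / 2) :=
    fun z hz => ⟨hBc hz.1, fun h => hz.2 (ball_subset_closedBall h)⟩
  obtain ⟨i1, i2, e1⟩ := main_id isOpen_ball hK hKB sU sV
    (fun z hz => hzone T hT1 hT2 z (hann z hz))
  set W := rM U V with hW
  have sW : ∀ z ∈ ball p r, ContDiffAt ℝ ∞ W z := fun z hz => rM_contDiffAt (sU z hz) (sV z hz)
  set L := Lm p S lam T' with hL
  have sL : ∀ z, ContDiffAt ℝ ∞ L z := fun z => Lm_contDiffAt p S lam T' z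
  set w := rM L W with hw
  have sw : ∀ z ∈ ball p r, ContDiffAt ℝ ∞ w z := fun z hz => rM_contDiffAt (sL z) (sW z hz)
  -- outer comparison
  have hout : ∀ z ∈ ball p r \ closedBall p (r / 2), w =ᶠ[𝓝 z] W := by
    intro z hz
    apply rM_ev_right (sL z).continuousAt (sW z hz.1).continuousAt
    have h1 : -C ≤ W z := by
      rcases hlow z (hann z hz) T with h | h
      · exact h.trans (le_rmax_left _ _)
      · exact h.trans (le_rmax_right _ _)
    have h2 := vm_le (p := p) (hBc hz.1) hS0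
    have h3 : L z = lam * vm p S z - T' := rfl
    have h4 : 0 ≤ |Real.log r| := abs_nonneg _
    have h5 : lam * vm p S z ≤ lam * (2 * |Real.log r| + 2) :=
      mul_le_mul_of_nonneg_left h2 hl0.le
    have h6 : lam * (2 * |Real.log r| + 2) ≤ 1 * (2 * |Real.log r| + 2) :=
      mul_le_mul_of_nonneg_right hl1.le (by linarith)
    rw [h3, hT']
    linarith
  obtain ⟨i3, e3⟩ := mass_congr isOpen_ball hK hKB sw sW hout i2
  -- inner comparison
  have hB1 : ball p r₁ ⊆ ball p r := ball_subset_ball (by linarith)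
  have hin : ∀ z ∈ ball p r₁ \ closedBall p (r₁ / 2), w =ᶠ[𝓝 z] L := by
    intro z hz
    apply rM_ev_left (sL z).continuousAt (sW z (hB1 hz.1)).continuousAt
    have hz1 : ‖z - p‖ < r₁ := by
      have := hz.1
      rwa [mem_ball, dist_eq_norm] at this
    have hz2 : r₁ / 2 < ‖z - p‖ := by
      have := hz.2
      rwa [mem_closedBall, dist_eq_norm, not_le] at this
    have hρ : 0 < ‖z - p‖ := by linarith
    have hzp : z ≠ p := fun h => by simp [h] at hρ
    have hl1' : Real.log ‖z - p‖ ≤ E := (Real.log_le_log hρ hz1.le).trans hr₁E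
    have hl2' : Real.log (r₁ / 2) ≤ Real.log ‖z - p‖ := Real.log_le_log (by linarith) hz2.le
    have hb1 : ‖f z‖ ≤ max Cf Cg * ‖z - p‖ ^ m :=
      (hbf z (ball_subset_ball hr₁f hz.1)).trans
        (mul_le_mul_of_nonneg_right (le_max_left _ _) (by positivity))
    have hb2 : ‖g z‖ ≤ max Cf Cg * ‖z - p‖ ^ n :=
      (hbg z (ball_subset_ball hr₁g hz.1)).trans
        (mul_le_mul_of_nonneg_right (le_max_right _ _) (by positivity))
    have hu1 := psm_upper hm hCm hzp hb1 T
    have hu2 := psm_upper hn hCm hzp hb2 T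
    have hLz : 2 * lam * Real.log ‖z - p‖ - T' ≤ L z := by
      have h3 : L z = lam * vm p S z - T' := rfl
      have h4 := mul_le_mul_of_nonneg_left (log_le_vm hzp S) hl0.le
      rw [h3]
      linarith
    -- the two comparisons
    have hk1 : C1 + 2 * Real.log ‖z - p‖ + 4 ≤ 2 * lam * Real.log ‖z - p‖ - T' := by
      have h5 : 0 < 2 * (1 - lam) := by linarith
      have h6 : Real.log ‖z - p‖ * (2 * (1 - lam)) ≤ -(T' + 4 + C1) := by
        rwa [hE, le_div_iff₀ h5] at hl1'
      nlinarith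
    have hk2 : ∀ k : ℕ, (0 : ℝ) < k → k * Q < T →
        -(T / k) + 3 < 2 * lam * Real.log ‖z - p‖ - T' := by
      intro k hk hkT
      have h5 : Q < T / k := by
        rw [lt_div_iff₀ hk]
        linarith
      have h6 : lam * Real.log (r₁ / 2) ≤ lam * Real.log ‖z - p‖ :=
        mul_le_mul_of_nonneg_left hl2' hl0.le
      rw [hQ] at h5
      linarith
    have hWz : W z < L z - 1 := by
      have hk3 := hk2 m hm0 hT3
      have hk4 := hk2 n hn0 hT4
      have h7 : U z ≤ max (C1 + 2 * Real.log ‖z - p‖)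
          (max (-(T / m)) (-(T / n))) + 1 := by
        refine hu1.trans ?_
        have := max_le_max (le_refl (C1 + 2 * Real.log ‖z - p‖))
          (le_max_left (-(T / m)) (-(T / n)))
        linarith
      have h8 : V z ≤ max (C1 + 2 * Real.log ‖z - p‖)
          (max (-(T / m)) (-(T / n))) + 1 := by
        refine hu2.trans ?_
        have := max_le_max (le_refl (C1 + 2 * Real.log ‖z - p‖))
          (le_max_right (-(T / m)) (-(T / n)))
        linarith
      have h9 := rM_le h7 h8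
      have h10 : max (C1 + 2 * Real.log ‖z - p‖) (max (-(T / m)) (-(T / n))) <
          2 * lam * Real.log ‖z - p‖ - T' - 3 := by
        apply max_lt
        · linarith
        · apply max_lt <;> linarith
      linarith
    linarith
  have hiL : IntegrableOn (mx L L) (ball p r₁) := by
    have : mx L L = fun z => lam ^ 2 * mx (vm p S) (vm p S) z := funext fun z => mx_Lm p S lam T' z
    rw [this]
    exact iv.const_mul _
  obtain ⟨i4, e4⟩ := mass_congr (B := ball p r₁) (K := closedBall p (r₁ / 2)) isOpen_ball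
    (isCompact_closedBall p _) (closedBall_subset_ball (by linarith))
    (fun z hz => sw z (hB1 hz)) (fun z _ => sL z) hin hiL
  have e5 : ∫ z in ball p r₁, mx L L z = lam ^ 2 * Real.pi ^ 2 := by
    rw [← ev, ← integral_const_mul]
    exact setIntegral_congr_fun isOpen_ball.measurableSet fun z _ => mx_Lm p S lam T' z
  have hpsd : ∀ z ∈ ball p r, 0 ≤ mx w w z := by
    intro z hz
    apply mx_self_nonneg
    apply rM_psd (sL z) (sW z hz)
    · rw [hL, H_Lm]
      exact real_smul_psd hl0.le (vm_psd p S z)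
    · exact rM_psd (sU z hz) (sV z hz) (psm_psd m T (hf z (hBc hz))) (psm_psd n T (hg z (hBc hz)))
  have e6 : ∫ z in ball p r₁, mx w w z ≤ ∫ z in ball p r, mx w w z := by
    apply setIntegral_mono_set i3
    · filter_upwards [ae_restrict_mem isOpen_ball.measurableSet] with z hz
      exact hpsd z hz
    · exact Eventually.of_forall hB1
  have e7 : lam ^ 2 * Real.pi ^ 2 ≤ ∫ z in ball p r, mx U V z := by
    rw [← e1, ← e3, ← e5, ← e4]
    exact e6
  have e8 : ∀ z ∈ ball p r, (m * n : ℝ) * mx U V z = mx (psi T f) (psi T g) z := by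
    intro z hz
    rw [hU, hV, mx_psm m n T (hf z (hBc hz)) (hg z (hBc hz))]
    field_simp
  constructor
  · have h9 : IntegrableOn (fun z => (m * n : ℝ) * mx U V z) (ball p r) := i1.const_mul _
    exact h9.congr_fun e8 isOpen_ball.measurableSet
  · rw [← setIntegral_congr_fun isOpen_ball.measurableSet e8, integral_const_mul]
    have h9 : (0 : ℝ) ≤ m * n := by positivity
    calc lam ^ 2 * (m * n * Real.pi ^ 2) = (m * n) * (lam ^ 2 * Real.pi ^ 2) := by ring
      _ ≤ _ := mul_le_mul_of_nonneg_left e7 h9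

end Vale.Agent.P290.H561
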