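import Vale.Agent.P268.Hol
import Vale.Agent.P290.H220.MA
import Vale.Agent.P290.H561.IPLoc

/-!
# P290 / H561: local intersection multiplicity, final form (in the notation of H220.MA)
-/

set_option linter.unusedVariables false
set_option linter.unusedSectionVars false

open scoped ContDiff Topology ComplexConjugate ComplexOrder Matrix
open MeasureTheory Set Filter Metric Asymptotics
open Vale.Agent.P267.FL (C2 dz dzb)

noncomputable section

namespace Vale.Agent.P290.H561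

/-- zones near the boundary for large `T`, exponents one; gives integrability and the vanishing of
the density near the boundary. -/
theorem loc_support {p : C2} {r : ℝ} (hr : 0 < r) {f g : C2 → ℂ}
    (hf : ∀ z ∈ closedBall p r, AnalyticAt ℂ f z) (hg : ∀ z ∈ closedBall p r, AnalyticAt ℂ g z)
    (h0 : ∀ z ∈ closedBall p r, f z = 0 → g z = 0 → z = p) :
    ∃ T₀ : ℝ, ∀ T, T₀ < T → (∀ z ∈ closedBall p r \ ball p (r / 2), mx (psi T f) (psi T g) z = 0) ∧
      IntegrableOn (mx (psi T f) (psi T g)) (ball p r) := by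
  obtain ⟨C, hC, -, hzone⟩ := exists_zone hr hf hg h0 (m := 1) (n := 1) one_pos one_pos
  refine ⟨C + 2, fun T hT => ?_⟩
  have h1 := hzone T (by norm_num; linarith) (by norm_num; linarith)
  simp only [psm_one] at h1
  have h2 : ∀ z ∈ closedBall p r \ ball p (r / 2), mx (psi T f) (psi T g) z = 0 :=
    fun z hz => (h1 z hz).mx_zero
  refine ⟨h2, ?_⟩
  have hBc : ball p r ⊆ closedBall p r := ball_subset_closedBall
  exact intOn isOpen_ball (isCompact_closedBall p (r / 2)) (closedBall_subset_ball (by linarith))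
    (contOn_mx (fun z hz => psi_contDiffAt T (hf z (hBc hz)))
      fun z hz => psi_contDiffAt T (hg z (hBc hz)))
    fun z hz => h2 z ⟨hBc hz.1, fun h => hz.2 (ball_subset_closedBall h)⟩

/-- **Local theorem**: the intersection multiplicity is at least the product of the orders. -/
theorem loc_mult {p : C2} {r : ℝ} (hr : 0 < r) {f g : C2 → ℂ}
    (hf : ∀ z ∈ closedBall p r, AnalyticAt ℂ f z) (hg : ∀ z ∈ closedBall p r, AnalyticAt ℂ g z)
    (h0 : ∀ z ∈ closedBall p r, f z = 0 → g z = 0 → z = p) {m n : ℕ}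
    (hfO : f =O[𝓝 p] fun z => ‖z - p‖ ^ m) (hgO : g =O[𝓝 p] fun z => ‖z - p‖ ^ n)
    {lam : ℝ} (hl : lam < 1) :
    ∃ T₀ : ℝ, ∀ T, T₀ < T → (∀ z ∈ closedBall p r \ ball p (r / 2), mx (psi T f) (psi T g) z = 0) ∧
      IntegrableOn (mx (psi T f) (psi T g)) (ball p r) ∧
      lam * (m * n * Real.pi ^ 2) ≤ ∫ z in ball p r, mx (psi T f) (psi T g) z := by
  obtain ⟨T₁, hT₁⟩ := loc_support hr hf hg h0
  have hBc : ball p r ⊆ closedBall p r := ball_subset_closedBall
  have hnn : ∀ T, 0 ≤ ∫ z in ball p r, mx (psi T f) (psi T g) z := by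
    intro T
    apply setIntegral_nonneg isOpen_ball.measurableSet
    intro z hz
    exact mx_psi_nonneg T (hf z (hBc hz)) (hg z (hBc hz))
  rcases Nat.eq_zero_or_pos m with hm | hm
  · refine ⟨T₁, fun T hT => ⟨(hT₁ T hT).1, (hT₁ T hT).2, ?_⟩⟩
    subst hm
    simpa using hnn T
  rcases Nat.eq_zero_or_pos n with hn | hn
  · refine ⟨T₁, fun T hT => ⟨(hT₁ T hT).1, (hT₁ T hT).2, ?_⟩⟩
    subst hn
    simpa using hnn T
  set l := max (1 / 2 : ℝ) ((1 + lam) / 2) with hldef
  have h1 : 1 / 2 ≤ l := le_max_left _ _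
  have h2 : (1 + lam) / 2 ≤ l := le_max_right _ _
  have h3 : l < 1 := max_lt (by norm_num) (by linarith)
  obtain ⟨T₂, hT₂⟩ := loc_basic hr hf hg h0 hm hn hfO hgO (lam := l) (by linarith) h3
  refine ⟨max T₁ T₂, fun T hT => ?_⟩
  have hT1 : T₁ < T := lt_of_le_of_lt (le_max_left _ _) hT
  have hT2 : T₂ < T := lt_of_le_of_lt (le_max_right _ _) hT
  refine ⟨(hT₁ T hT1).1, (hT₁ T hT1).2, le_trans ?_ (hT₂ T hT2).2⟩
  have h4 : lam ≤ l ^ 2 := by nlinarith [sq_nonneg (l - 1)]
  exact mul_le_mul_of_nonneg_right h4 (by positivity)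

/-! ### the same in the notation of `H220.MA` -/

theorem MA_eq (u v : C2 → ℝ) (z : C2) :
    H220.MA (fun y => (u y : ℂ)) (fun y => (v y : ℂ)) z = mxd (H u z) (H v z) := rfl

theorem MA_re (u v : C2 → ℝ) (z : C2) :
    (H220.MA (fun y => (u y : ℂ)) (fun y => (v y : ℂ)) z).re = mx u v z := rfl

theorem H_hermitian {u : C2 → ℝ} {z : C2} (hu : ContDiffAt ℝ ∞ u z) (i j : Fin 2) :
    conj (H u z i j) = H u z j i := by
  have h2 : (2 : WithTop ℕ∞) ≤ ∞ := by norm_cast
  have h1 := H220.lv_conj ((cx_contDiffAt hu).of_le h2) i j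
  simp only [Complex.conj_ofReal] at h1
  have h3 : H u z i j = conj (H u z j i) := h1
  rw [h3, Complex.conj_conj]

theorem mxd_real {u v : C2 → ℝ} {z : C2} (hu : ContDiffAt ℝ ∞ u z) (hv : ContDiffAt ℝ ∞ v z) :
    mxd (H u z) (H v z) = (mx u v z : ℂ) := by
  have h1 : conj (mxd (H u z) (H v z)) = mxd (H u z) (H v z) := by
    unfold mxd
    simp only [map_sub, map_add, map_mul, H_hermitian hu, H_hermitian hv]
    ring
  exact (Complex.conj_eq_iff_re.1 h1).symm

theorem MA_real {u v : C2 → ℝ} {z : C2} (hu : ContDiffAt ℝ ∞ u z) (hv : ContDiffAt ℝ ∞ v z) :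
    H220.MA (fun y => (u y : ℂ)) (fun y => (v y : ℂ)) z = (mx u v z : ℂ) := by
  rw [MA_eq, mxd_real hu hv]

/-- **Local theorem**, in the notation of `H220.MA`, for holomorphic functions on an open set. -/
theorem loc_mult_MA {p : C2} {r : ℝ} (hr : 0 < r) {Ω : Set C2} (hΩ : IsOpen Ω)
    (hrΩ : closedBall p r ⊆ Ω) {f g : C2 → ℂ} (hf : DifferentiableOn ℂ f Ω)
    (hg : DifferentiableOn ℂ g Ω)
    (h0 : ∀ z ∈ closedBall p r, f z = 0 → g z = 0 → z = p) {m n : ℕ}
    (hfO : f =O[𝓝 p] fun z => ‖z - p‖ ^ m) (hgO : g =O[𝓝 p] fun z => ‖z - p‖ ^ n)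
    {lam : ℝ} (hl : lam < 1) :
    ∃ T₀ : ℝ, ∀ T, T₀ < T →
      (∀ z ∈ closedBall p r \ ball p (r / 2),
        H220.MA (fun y => ((KT T (Complex.normSq (f y)) : ℝ) : ℂ))
          (fun y => ((KT T (Complex.normSq (g y)) : ℝ) : ℂ)) z = 0) ∧
      IntegrableOn (H220.MA (fun y => ((KT T (Complex.normSq (f y)) : ℝ) : ℂ))
          (fun y => ((KT T (Complex.normSq (g y)) : ℝ) : ℂ))) (ball p r) ∧
      (∫ z in ball p r, H220.MA (fun y => ((KT T (Complex.normSq (f y)) : ℝ) : ℂ))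
          (fun y => ((KT T (Complex.normSq (g y)) : ℝ) : ℂ)) z).im = 0 ∧
      lam * (m * n * Real.pi ^ 2) ≤
        (∫ z in ball p r, H220.MA (fun y => ((KT T (Complex.normSq (f y)) : ℝ) : ℂ))
          (fun y => ((KT T (Complex.normSq (g y)) : ℝ) : ℂ)) z).re := by
  have haf : ∀ z ∈ closedBall p r, AnalyticAt ℂ f z := fun z hz =>
    P268.analyticAt_of_differentiableOn hΩ hf (hrΩ hz)
  have hag : ∀ z ∈ closedBall p r, AnalyticAt ℂ g z := fun z hz =>
    P268.analyticAt_of_differentiableOn hΩ hg (hrΩ hz)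
  obtain ⟨T₀, hT₀⟩ := loc_mult hr haf hag h0 hfO hgO hl
  refine ⟨T₀, fun T hT => ?_⟩
  obtain ⟨h1, h2, h3⟩ := hT₀ T hT
  have hBc : ball p r ⊆ closedBall p r := ball_subset_closedBall
  have key : ∀ z ∈ closedBall p r, H220.MA (fun y => ((KT T (Complex.normSq (f y)) : ℝ) : ℂ))
      (fun y => ((KT T (Complex.normSq (g y)) : ℝ) : ℂ)) z =
        ((mx (psi T f) (psi T g) z : ℝ) : ℂ) := fun z hz =>
    MA_real (u := psi T f) (v := psi T g) (psi_contDiffAt T (haf z hz)) (psi_contDiffAt T (hag z hz))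
  have e : ∫ z in ball p r, H220.MA (fun y => ((KT T (Complex.normSq (f y)) : ℝ) : ℂ))
      (fun y => ((KT T (Complex.normSq (g y)) : ℝ) : ℂ)) z =
        ((∫ z in ball p r, mx (psi T f) (psi T g) z : ℝ) : ℂ) := by
    rw [← integral_complex_ofReal]
    exact setIntegral_congr_fun isOpen_ball.measurableSet fun z hz => key z (hBc hz)
  refine ⟨fun z hz => ?_, ?_, ?_, ?_⟩
  · rw [key z hz.1, h1 z hz, Complex.ofReal_zero]
  · have h4 : IntegrableOn (fun z => ((mx (psi T f) (psi T g) z : ℝ) : ℂ)) (ball p r) :=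
      h2.ofReal
    exact h4.congr_fun (fun z hz => (key z (hBc hz)).symm) isOpen_ball.measurableSet
  · rw [e, Complex.ofReal_im]
  · rw [e, Complex.ofReal_re]
    exact h3

end Vale.Agent.P290.H561
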