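import Vale.Agent.P290.H561.IPLoc

/-!
# P290 / H561: local intersection multiplicity on a general domain
-/

set_option linter.unusedVariables false
set_option linter.unusedSectionVars false

open scoped ContDiff Topology ComplexConjugate ComplexOrder Matrix
open MeasureTheory Set Filter Metric Asymptotics
open Vale.Agent.P267.FL (C2 dz dzb)

noncomputable section

namespace Vale.Agent.P290.H561

theorem exists_zone' {A : Set C2} (hA : IsCompact A) {f g : C2 → ℂ}
    (hf : ∀ z ∈ A, AnalyticAt ℂ f z) (hg : ∀ z ∈ A, AnalyticAt ℂ g z)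
    (h0 : ∀ z ∈ A, f z = 0 → g z ≠ 0) {m n : ℕ} (hm : 0 < m) (hn : 0 < n) :
    ∃ C : ℝ, 0 ≤ C ∧ (∀ z ∈ A, ∀ T, -C ≤ psm m T f z ∨ -C ≤ psm n T g z) ∧
      ∀ T, m * (C + 1) + 1 < T → n * (C + 1) + 1 < T →
        ∀ z ∈ A, Zone (psm m T f) (psm n T g) z := by
  obtain ⟨c, hc, h1⟩ := exists_lower hA (f := f) (g := g)
    (fun z hz => (hf z hz).continuousAt.continuousWithinAt)
    (fun z hz => (hg z hz).continuousAt.continuousWithinAt) h0
  refine ⟨|Real.log c|, abs_nonneg _, ?_, ?_⟩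
  · intro z hz T
    rcases h1 z hz with h | h
    · exact Or.inl (psm_ge hm T hc h)
    · exact Or.inr (psm_ge hn T hc h)
  · intro T hTm hTn z hz
    refine zone_of hm hn (hf z hz) (hg z hz) ?_ hTm hTn
    rcases h1 z hz with h | h
    · exact Or.inl (psm_ge hm T hc h)
    · exact Or.inr (psm_ge hn T hc h)

/-- **Local theorem** on a general domain. -/
theorem loc_gen {B K A : Set C2} (hB : IsOpen B) (hK : IsCompact K) (hKB : K ⊆ B)
    (hA : IsCompact A) (hBA : B \ K ⊆ A) {p : C2} (hp : p ∈ B) {r : ℝ} (hR : B ⊆ closedBall p r)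
    {f g : C2 → ℂ} (hf : ∀ z ∈ B, AnalyticAt ℂ f z) (hg : ∀ z ∈ B, AnalyticAt ℂ g z)
    (hfA : ∀ z ∈ A, AnalyticAt ℂ f z) (hgA : ∀ z ∈ A, AnalyticAt ℂ g z)
    (h0 : ∀ z ∈ A, f z = 0 → g z ≠ 0) {m n : ℕ} (hm : 0 < m) (hn : 0 < n)
    (hfO : f =O[𝓝 p] fun z => ‖z - p‖ ^ m) (hgO : g =O[𝓝 p] fun z => ‖z - p‖ ^ n)
    {lam : ℝ} (hl0 : 0 < lam) (hl1 : lam < 1) :
    ∃ T₀ : ℝ, ∀ T, T₀ < T → IntegrableOn (mx (psi T f) (psi T g)) B ∧
      lam ^ 2 * (m * n * Real.pi ^ 2) ≤ ∫ z in B, mx (psi T f) (psi T g) z := by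
  obtain ⟨C, hC, hlow, hzone⟩ := exists_zone' hA hfA hgA h0 hm hn
  obtain ⟨r₀, hr₀, hr₀B⟩ := Metric.isOpen_iff.1 hB p hp
  obtain ⟨Cf, hCf, rf, hrf, hbf⟩ := exists_bound hfO
  obtain ⟨Cg, hCg, rg, hrg, hbg⟩ := exists_bound hgO
  set T' := C + 4 + 2 * |Real.log r| with hT'
  set C1 := 2 * Real.log (max Cf Cg) with hC1
  have hCm : 1 ≤ max Cf Cg := hCf.trans (le_max_left _ _)
  set E := -(T' + 4 + C1) / (2 * (1 - lam)) with hE
  set r₁ := min (min r₀ (min rf rg)) (Real.exp E) with hr₁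
  have hr₁0 : 0 < r₁ := lt_min (lt_min hr₀ (lt_min hrf hrg)) (Real.exp_pos _)
  have hr₁r : r₁ ≤ r₀ := (min_le_left _ _).trans (min_le_left _ _)
  have hr₁f : r₁ ≤ rf := (min_le_left _ _).trans ((min_le_right _ _).trans (min_le_left _ _))
  have hr₁g : r₁ ≤ rg := (min_le_left _ _).trans ((min_le_right _ _).trans (min_le_right _ _))
  have hr₁E : Real.log r₁ ≤ E := by
    rw [← Real.log_exp E]
    exact Real.log_le_log hr₁0 (min_le_right _ _)
  obtain ⟨S₀, hS₀⟩ := vm_mass (p := p) hr₁0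
  set S := max S₀ 0 + 1 with hS
  obtain ⟨iv, ev⟩ := hS₀ S (by rw [hS]; have := le_max_left S₀ 0; linarith)
  have hS0 : 0 ≤ S := by rw [hS]; have := le_max_right S₀ 0; linarith
  have hm0 : (0 : ℝ) < m := by exact_mod_cast hm
  have hn0 : (0 : ℝ) < n := by exact_mod_cast hn
  set Q := 3 + T' - 2 * lam * Real.log (r₁ / 2) with hQ
  refine ⟨max (max (m * (C + 1) + 1) (n * (C + 1) + 1)) (max (m * Q) (n * Q)), fun T hT => ?_⟩
  rw [max_lt_iff, max_lt_iff, max_lt_iff] at hT
  obtain ⟨⟨hT1, hT2⟩, hT3, hT4⟩ := hT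
  set U := psm m T f with hU
  set V := psm n T g with hV
  have sU : ∀ z ∈ B, ContDiffAt ℝ ∞ U z := fun z hz => psm_contDiffAt m T (hf z hz)
  have sV : ∀ z ∈ B, ContDiffAt ℝ ∞ V z := fun z hz => psm_contDiffAt n T (hg z hz)
  obtain ⟨i1, i2, e1⟩ := main_id hB hK hKB sU sV
    (fun z hz => hzone T hT1 hT2 z (hBA hz))
  set W := rM U V with hW
  have sW : ∀ z ∈ B, ContDiffAt ℝ ∞ W z := fun z hz => rM_contDiffAt (sU z hz) (sV z hz)
  set L := Lm p S lam T' with hL
  have sL : ∀ z, ContDiffAt ℝ ∞ L z := fun z => Lm_contDiffAt p S lam T' z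
  set w := rM L W with hw
  have sw : ∀ z ∈ B, ContDiffAt ℝ ∞ w z := fun z hz => rM_contDiffAt (sL z) (sW z hz)
  -- outer comparison
  have hout : ∀ z ∈ B \ K, w =ᶠ[𝓝 z] W := by
    intro z hz
    apply rM_ev_right (sL z).continuousAt (sW z hz.1).continuousAt
    have h1 : -C ≤ W z := by
      rcases hlow z (hBA hz) T with h | h
      · exact h.trans (le_rmax_left _ _)
      · exact h.trans (le_rmax_right _ _)
    have h2 := vm_le (p := p) (hR hz.1) hS0
    have h3 : L z = lam * vm p S z - T' := rfl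
    have h4 : 0 ≤ |Real.log r| := abs_nonneg _
    have h5 : lam * vm p S z ≤ lam * (2 * |Real.log r| + 2) :=
      mul_le_mul_of_nonneg_left h2 hl0.le
    have h6 : lam * (2 * |Real.log r| + 2) ≤ 1 * (2 * |Real.log r| + 2) :=
      mul_le_mul_of_nonneg_right hl1.le (by linarith)
    rw [h3, hT']
    linarith
  obtain ⟨i3, e3⟩ := mass_congr hB hK hKB sw sW hout i2
  -- inner comparison
  have hB1 : ball p r₁ ⊆ B := (ball_subset_ball hr₁r).trans hr₀B
  have hin : ∀ z ∈ ball p r₁ \ closedBall p (r₁ / 2), w =ᶠ[𝓝 z] L := by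
    intro z hz
    apply rM_ev_left (sL z).continuousAt (sW z (hB1 hz.1)).continuousAt
    have hz1 : ‖z - p‖ < r₁ := by
      have := hz.1
      rwa [mem_ball, dist_eq_norm] at this
    have hz2 : r₁ / 2 < ‖z - p‖ := by
      have := hz.2
      rwa [mem_closedBall, dist_eq_norm, not_le] at this
    have hρ : 0 < ‖z - p‖ := by linarith
    have hzp : z ≠ p := fun h => by simp [h] at hρ
    have hl1' : Real.log ‖z - p‖ ≤ E := (Real.log_le_log hρ hz1.le).trans hr₁E
    have hl2' : Real.log (r₁ / 2) ≤ Real.log ‖z - p‖ := Real.log_le_log (by linarith) hz2.le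
    have hb1 : ‖f z‖ ≤ max Cf Cg * ‖z - p‖ ^ m :=
      (hbf z (ball_subset_ball hr₁f hz.1)).trans
        (mul_le_mul_of_nonneg_right (le_max_left _ _) (by positivity))
    have hb2 : ‖g z‖ ≤ max Cf Cg * ‖z - p‖ ^ n :=
      (hbg z (ball_subset_ball hr₁g hz.1)).trans
        (mul_le_mul_of_nonneg_right (le_max_right _ _) (by positivity))
    have hu1 := psm_upper hm hCm hzp hb1 T
    have hu2 := psm_upper hn hCm hzp hb2 T
    have hLz : 2 * lam * Real.log ‖z - p‖ - T' ≤ L z := by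
      have h3 : L z = lam * vm p S z - T' := rfl
      have h4 := mul_le_mul_of_nonneg_left (log_le_vm hzp S) hl0.le
      rw [h3]
      linarith
    -- the two comparisons
    have hk1 : C1 + 2 * Real.log ‖z - p‖ + 4 ≤ 2 * lam * Real.log ‖z - p‖ - T' := by
      have h5 : 0 < 2 * (1 - lam) := by linarith
      have h6 : Real.log ‖z - p‖ * (2 * (1 - lam)) ≤ -(T' + 4 + C1) := by
        rwa [hE, le_div_iff₀ h5] at hl1'
      nlinarith
    have hk2 : ∀ k : ℕ, (0 : ℝ) < k → k * Q < T →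
        -(T / k) + 3 < 2 * lam * Real.log ‖z - p‖ - T' := by
      intro k hk hkT
      have h5 : Q < T / k := by
        rw [lt_div_iff₀ hk]
        linarith
      have h6 : lam * Real.log (r₁ / 2) ≤ lam * Real.log ‖z - p‖ :=
        mul_le_mul_of_nonneg_left hl2' hl0.le
      rw [hQ] at h5
      linarith
    have hWz : W z < L z - 1 := by
      have hk3 := hk2 m hm0 hT3
      have hk4 := hk2 n hn0 hT4
      have h7 : U z ≤ max (C1 + 2 * Real.log ‖z - p‖)
          (max (-(T / m)) (-(T / n))) + 1 := by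
        refine hu1.trans ?_
        have := max_le_max (le_refl (C1 + 2 * Real.log ‖z - p‖))
          (le_max_left (-(T / m)) (-(T / n)))
        linarith
      have h8 : V z ≤ max (C1 + 2 * Real.log ‖z - p‖)
          (max (-(T / m)) (-(T / n))) + 1 := by
        refine hu2.trans ?_
        have := max_le_max (le_refl (C1 + 2 * Real.log ‖z - p‖))
          (le_max_right (-(T / m)) (-(T / n)))
        linarith
      have h9 := rM_le h7 h8
      have h10 : max (C1 + 2 * Real.log ‖z - p‖) (max (-(T / m)) (-(T / n))) <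
          2 * lam * Real.log ‖z - p‖ - T' - 3 := by
        apply max_lt
        · linarith
        · apply max_lt <;> linarith
      linarith
    linarith
  have hiL : IntegrableOn (mx L L) (ball p r₁) := by
    have : mx L L = fun z => lam ^ 2 * mx (vm p S) (vm p S) z := funext fun z => mx_Lm p S lam T' z
    rw [this]
    exact iv.const_mul _
  obtain ⟨i4, e4⟩ := mass_congr (B := ball p r₁) (K := closedBall p (r₁ / 2)) isOpen_ball
    (isCompact_closedBall p _) (closedBall_subset_ball (by linarith))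
    (fun z hz => sw z (hB1 hz)) (fun z _ => sL z) hin hiL
  have e5 : ∫ z in ball p r₁, mx L L z = lam ^ 2 * Real.pi ^ 2 := by
    rw [← ev, ← integral_const_mul]
    exact setIntegral_congr_fun isOpen_ball.measurableSet fun z _ => mx_Lm p S lam T' z
  have hpsd : ∀ z ∈ B, 0 ≤ mx w w z := by
    intro z hz
    apply mx_self_nonneg
    apply rM_psd (sL z) (sW z hz)
    · rw [hL, H_Lm]
      exact real_smul_psd hl0.le (vm_psd p S z)
    · exact rM_psd (sU z hz) (sV z hz) (psm_psd m T (hf z hz)) (psm_psd n T (hg z hz))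
  have e6 : ∫ z in ball p r₁, mx w w z ≤ ∫ z in B, mx w w z := by
    apply setIntegral_mono_set i3
    · filter_upwards [ae_restrict_mem hB.measurableSet] with z hz
      exact hpsd z hz
    · exact Eventually.of_forall hB1
  have e7 : lam ^ 2 * Real.pi ^ 2 ≤ ∫ z in B, mx U V z := by
    rw [← e1, ← e3, ← e5, ← e4]
    exact e6
  have e8 : ∀ z ∈ B, (m * n : ℝ) * mx U V z = mx (psi T f) (psi T g) z := by
    intro z hz
    rw [hU, hV, mx_psm m n T (hf z hz) (hg z hz)]
    field_simp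
  constructor
  · have h9 : IntegrableOn (fun z => (m * n : ℝ) * mx U V z) B := i1.const_mul _
    exact h9.congr_fun e8 hB.measurableSet
  · rw [← setIntegral_congr_fun hB.measurableSet e8, integral_const_mul]
    have h9 : (0 : ℝ) ≤ m * n := by positivity
    calc lam ^ 2 * (m * n * Real.pi ^ 2) = (m * n) * (lam ^ 2 * Real.pi ^ 2) := by ring
      _ ≤ _ := mul_le_mul_of_nonneg_left e7 h9

end Vale.Agent.P290.H561
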