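import Vale.Agent.P290.H220.Glob
import Vale.Agent.P290.H220.Indep
import Vale.Agent.P290.H561.IPMain
import Vale.Agent.P290.H561.IPGen

/-!
# P290 / H561: the local theorem in the form `H220.LocThm`
-/

set_option linter.unusedVariables false
set_option linter.unusedSectionVars false

open scoped ContDiff Topology ComplexConjugate ComplexOrder Matrix
open MeasureTheory Set Filter Metric Asymptotics
open Vale.Agent.P267.FL (C2 dz dzb)

noncomputable section

namespace Vale.Agent.P290.H561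

theorem lv_zero_of {U A : Set C2} (hU : IsOpen U) {f : C2 → ℂ} {u : C2 → ℝ}
    (hf : DifferentiableOn ℂ f U) (hA : IsOpen (U \ A))
    (h1 : ∀ z ∈ U, z ∉ A → f z ≠ 0 ∧ u z = Real.log (‖f z‖ ^ 2)) {z : C2} (hz : z ∈ U)
    (hzA : z ∉ A) (i j : Fin 2) : H220.lv i j (fun y => (u y : ℂ)) z = 0 := by
  have e1 : (fun y => (u y : ℂ)) =ᶠ[𝓝 z]
      fun y => ((Real.log (Complex.normSq (f y)) : ℝ) : ℂ) := by
    filter_upwards [hA.mem_nhds ⟨hz, hzA⟩] with y hy
    rw [(h1 y hy.1 hy.2).2, Complex.normSq_eq_norm_sq]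
  rw [H220.lv_congr e1, H220.lv_log_normSq (H220.eventually_hol hU hf hz) (h1 z hz hzA).1]

theorem locThm : H220.LocThm := by
  intro U K A A' f g u v p a b hU hK hKU hf hg hu hv hA hA' h1 h2 hAA hpU hfO hgO
  have haf : ∀ z ∈ U, AnalyticAt ℂ f z := fun z hz => P268.analyticAt_of_differentiableOn hU hf hz
  have hag : ∀ z ∈ U, AnalyticAt ℂ g z := fun z hz => P268.analyticAt_of_differentiableOn hU hg hz
  obtain ⟨K₁, hK₁, hK₁K, hK₁U⟩ := exists_compact_between (hK.insert p) hU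
    (insert_subset hpU hKU)
  obtain ⟨K₂, hK₂, hK₂K, hK₂U⟩ := exists_compact_between hK₁ hU hK₁U
  set B := interior K₂ with hB
  have hBo : IsOpen B := isOpen_interior
  have hBK₂ : B ⊆ K₂ := interior_subset
  have hBU : B ⊆ U := hBK₂.trans hK₂U
  have hKB : K ⊆ B := ((subset_insert p K).trans (hK₁K.trans interior_subset)).trans hK₂K
  have hpB : p ∈ B := hK₂K (interior_subset (hK₁K (mem_insert p K)))
  -- bounds
  obtain ⟨M, hM⟩ : ∃ M : ℝ, ∀ z ∈ K₂, -M ≤ u z ∧ -M ≤ v z := by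
    obtain ⟨M1, hM1⟩ := hK₂.exists_bound_of_continuousOn (hu.continuousOn.mono hK₂U)
    obtain ⟨M2, hM2⟩ := hK₂.exists_bound_of_continuousOn (hv.continuousOn.mono hK₂U)
    refine ⟨max M1 M2, fun z hz => ⟨?_, ?_⟩⟩
    · have e1 := hM1 z hz
      rw [Real.norm_eq_abs, abs_le] at e1
      have := le_max_left M1 M2
      linarith
    · have e1 := hM2 z hz
      rw [Real.norm_eq_abs, abs_le] at e1
      have := le_max_right M1 M2
      linarith
  have hc : ∀ {f : C2 → ℂ} {u : C2 → ℝ} {A : Set C2},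
      (∀ z ∈ U, z ∉ A → f z ≠ 0 ∧ u z = Real.log (‖f z‖ ^ 2)) → (∀ z ∈ K₂, -M ≤ u z) →
      ∀ z ∈ B, z ∉ A → Real.exp (-M) ≤ Complex.normSq (f z) ∧
        ((u z : ℝ) : ℂ) = ((Real.log (Complex.normSq (f z)) : ℝ) : ℂ) := by
    intro f u A h hMu z hz hzA
    obtain ⟨h3, h4⟩ := h z (hBU hz) hzA
    have h5 : 0 < ‖f z‖ ^ 2 := by positivity
    rw [Complex.normSq_eq_norm_sq, h4]
    refine ⟨?_, rfl⟩
    have h6 := hMu z (hBK₂ hz)
    rw [h4] at h6
    calc Real.exp (-M) ≤ Real.exp (Real.log (‖f z‖ ^ 2)) := Real.exp_le_exp.2 h6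
      _ = _ := Real.exp_log h5
  -- restriction to `B`
  have hUB : ∫ z in U, H220.MA (fun z => (u z : ℂ)) (fun z => (v z : ℂ)) z =
      ∫ z in B, H220.MA (fun z => (u z : ℂ)) (fun z => (v z : ℂ)) z := by
    apply setIntegral_eq_of_subset_of_forall_sdiff_eq_zero hU.measurableSet hBU
    intro z hz
    by_cases hzA : z ∈ A
    · have hzA' : z ∉ A' := fun h => hz.2 (hKB (hAA z hz.1 hzA h))
      exact H220.MA_zero_right (lv_zero_of hU hg hA' h2 hz.1 hzA')
    · exact H220.MA_zero_left (lv_zero_of hU hf hA h1 hz.1 hzA)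
  -- the regularised integrals
  have hreg : ∀ T : ℝ, 1 + M ≤ T →
      (∫ z in U, H220.MA (fun z => (u z : ℂ)) (fun z => (v z : ℂ)) z).re =
        ∫ z in B, mx (psi T f) (psi T g) z := by
    intro T hT
    have hG : H220.CutLog (KT T) (Real.exp (-M)) :=
      ⟨Real.exp_pos _, KT_contDiff T, fun x hx => KT_eq_log
        ((Real.exp_le_exp.2 (by linarith)).trans hx)⟩
    have hBA : IsOpen (B \ A) := by
      have : B \ A = B ∩ (U \ A) := by
        ext z
        constructor
        · rintro ⟨h3, h4⟩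
          exact ⟨h3, hBU h3, h4⟩
        · rintro ⟨h3, -, h4⟩
          exact ⟨h3, h4⟩
      rw [this]
      exact hBo.inter hA
    have hBA' : IsOpen (B \ A') := by
      have : B \ A' = B ∩ (U \ A') := by
        ext z
        constructor
        · rintro ⟨h3, h4⟩
          exact ⟨h3, hBU h3, h4⟩
        · rintro ⟨h3, -, h4⟩
          exact ⟨h3, h4⟩
      rw [this]
      exact hBo.inter hA'
    obtain ⟨-, -, e1⟩ := H220.indep hBo hK hKB (hf.mono hBU) (hg.mono hBU)
      (u := fun z => (u z : ℂ)) (v := fun z => (v z : ℂ))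
      (Complex.ofRealCLM.contDiff.comp_contDiffOn (hu.mono hBU))
      (Complex.ofRealCLM.contDiff.comp_contDiffOn (hv.mono hBU)) hG hBA hBA'
      (fun z hz hzA => hc h1 (fun z hz => (hM z hz).1) z hz hzA)
      (fun z hz hzA => hc h2 (fun z hz => (hM z hz).2) z hz hzA)
      (fun z hz => hAA z (hBU hz))
    rw [hUB, e1]
    have e2 : ∫ z in B, H220.MA (H220.Lg (KT T) f) (H220.Lg (KT T) g) z =
        ((∫ z in B, mx (psi T f) (psi T g) z : ℝ) : ℂ) := by
      rw [← integral_complex_ofReal]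
      refine setIntegral_congr_fun hBo.measurableSet fun z hz => ?_
      exact MA_real (u := psi T f) (v := psi T g) (psi_contDiffAt T (haf z (hBU hz)))
        (psi_contDiffAt T (hag z (hBU hz)))
    rw [e2, Complex.ofReal_re]
  have hnn : 0 ≤ (∫ z in U, H220.MA (fun z => (u z : ℂ)) (fun z => (v z : ℂ)) z).re := by
    rw [hreg (1 + M) le_rfl]
    exact setIntegral_nonneg hBo.measurableSet fun z hz =>
      mx_psi_nonneg _ (haf z (hBU hz)) (hag z (hBU hz))
  rcases Nat.eq_zero_or_pos a with ha | ha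
  · subst ha
    simpa using hnn
  rcases Nat.eq_zero_or_pos b with hb | hb
  · subst hb
    simpa using hnn
  -- the general local theorem on `B`
  obtain ⟨R, hR⟩ := hK₂.isBounded.subset_closedBall p
  have key : ∀ lam : ℝ, lam ∈ Ioo (0 : ℝ) 1 → lam ^ 2 * (a * b * Real.pi ^ 2) ≤
      (∫ z in U, H220.MA (fun z => (u z : ℂ)) (fun z => (v z : ℂ)) z).re := by
    intro lam hlam
    obtain ⟨T₀, hT₀⟩ := loc_gen hBo hK₁ hK₂K (hK₂.diff (isOpen_interior (s := K₁)))
      (fun z hz => ⟨hBK₂ hz.1, fun h => hz.2 (interior_subset h)⟩) hpB (hBK₂.trans hR)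
      (fun z hz => haf z (hBU hz)) (fun z hz => hag z (hBU hz))
      (fun z hz => haf z (hK₂U hz.1)) (fun z hz => hag z (hK₂U hz.1)) (by
        intro z hz hfz
        have hzU : z ∈ U := hK₂U hz.1
        have hzK : z ∉ K := fun h => hz.2 (hK₁K (mem_insert_of_mem p h))
        have hzA : z ∈ A := by
          by_contra h
          exact (h1 z hzU h).1 hfz
        exact (h2 z hzU fun h => hzK (hAA z hzU hzA h)).1) ha hb hfO hgO hlam.1 hlam.2
    rw [hreg (max T₀ (1 + M) + 1) (by have := le_max_right T₀ (1 + M); linarith)]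
    exact (hT₀ _ (by have := le_max_left T₀ (1 + M); linarith)).2
  have hlim : Tendsto (fun lam : ℝ => lam ^ 2 * (a * b * Real.pi ^ 2)) (𝓝[<] 1)
      (𝓝 ((1 : ℝ) ^ 2 * (a * b * Real.pi ^ 2))) := by
    apply Tendsto.mono_left _ nhdsWithin_le_nhds
    exact ((continuous_id.pow 2).mul continuous_const).tendsto 1
  have hfin := le_of_tendsto hlim (by
    filter_upwards [Ioo_mem_nhdsLT (zero_lt_one' ℝ)] with lam hlam using key lam hlam)
  calc Real.pi ^ 2 * (a * b) = (1 : ℝ) ^ 2 * (a * b * Real.pi ^ 2) := by ring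
    _ ≤ _ := hfin

end Vale.Agent.P290.H561
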