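import Mathlib

/-!
# P290 / H561: the cut-off functions `kap` (regularised positive part) and `KT` (regularised log)
-/

set_option linter.unusedVariables false

open scoped ContDiff Topology
open MeasureTheory Set Filter

noncomputable section

namespace Vale.Agent.P290.H561

/-- smooth monotone step function, `0` for `s ≤ -1`, `1` for `s ≥ 1` -/
def sg (s : ℝ) : ℝ := Real.smoothTransition ((s + 1) / 2)

theorem sg_contDiff : ContDiff ℝ ∞ sg :=
  (Real.smoothTransition.contDiff (n := ⊤)).comp ((contDiff_id.add contDiff_const).div_const 2)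

theorem sg_nonneg (s : ℝ) : 0 ≤ sg s := Real.smoothTransition.nonneg _

theorem sg_le_one (s : ℝ) : sg s ≤ 1 := Real.smoothTransition.le_one _

theorem sg_mono : Monotone sg := fun a b h =>
  Real.smoothTransition.monotone (by linarith)

theorem sg_zero {s : ℝ} (h : s ≤ -1) : sg s = 0 :=
  Real.smoothTransition.zero_of_nonpos (by linarith)

theorem sg_one {s : ℝ} (h : 1 ≤ s) : sg s = 1 :=
  Real.smoothTransition.one_of_one_le (by linarith)

theorem sg_symm (s : ℝ) : sg s + sg (-s) = 1 := by
  unfold sg Real.smoothTransition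
  have h1 : (1 : ℝ) - (s + 1) / 2 = (-s + 1) / 2 := by ring
  have h2 : (1 : ℝ) - (-s + 1) / 2 = (s + 1) / 2 := by ring
  rw [h1, h2]
  have h3 := Real.smoothTransition.pos_denom ((s + 1) / 2)
  rw [h1] at h3
  rw [add_comm (expNegInvGlue ((-s + 1) / 2)), ← add_div]
  exact div_self h3.ne'

theorem sg_cont : Continuous sg := sg_contDiff.continuous

/-- the derivative of `sg` -/
def sg' (s : ℝ) : ℝ := deriv sg s

theorem sg_hasDerivAt (s : ℝ) : HasDerivAt sg (sg' s) s :=
  ((sg_contDiff.differentiable (by simp)) s).hasDerivAt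

theorem sg'_nonneg (s : ℝ) : 0 ≤ sg' s := sg_mono.deriv_nonneg

theorem sg'_contDiff : ContDiff ℝ ∞ sg' := by
  have h := sg_contDiff
  rw [show (∞ : WithTop ℕ∞) = ∞ + 1 from rfl, contDiff_succ_iff_deriv] at h
  exact h.2.2

theorem sg'_zero_of_gt {s : ℝ} (h : 1 < s) : sg' s = 0 := by
  have : sg =ᶠ[𝓝 s] fun _ => 1 := by
    filter_upwards [Ioi_mem_nhds h] with t ht
    exact sg_one (le_of_lt ht)
  unfold sg'
  rw [this.deriv_eq]
  simp

theorem sg'_zero_of_lt {s : ℝ} (h : s < -1) : sg' s = 0 := by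
  have : sg =ᶠ[𝓝 s] fun _ => 0 := by
    filter_upwards [Iio_mem_nhds h] with t ht
    exact sg_zero (le_of_lt ht)
  unfold sg'
  rw [this.deriv_eq]
  simp

/-- regularised positive part -/
def kap (s : ℝ) : ℝ := ∫ t in (-1 : ℝ)..s, sg t

theorem kap_hasDerivAt (s : ℝ) : HasDerivAt kap (sg s) s :=
  intervalIntegral.integral_hasDerivAt_right (sg_cont.intervalIntegrable _ _)
    (sg_cont.stronglyMeasurableAtFilter _ _) sg_cont.continuousAt

theorem kap_deriv : deriv kap = sg := funext fun s => (kap_hasDerivAt s).deriv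

theorem kap_contDiff : ContDiff ℝ ∞ kap := by
  rw [show (∞ : WithTop ℕ∞) = ∞ + 1 from rfl, contDiff_succ_iff_deriv]
  refine ⟨fun s => (kap_hasDerivAt s).differentiableAt, by simp, ?_⟩
  rw [kap_deriv]
  exact sg_contDiff

theorem kap_mono : Monotone kap := by
  apply monotone_of_deriv_nonneg (fun s => (kap_hasDerivAt s).differentiableAt)
  intro s
  rw [kap_deriv]
  exact sg_nonneg s

theorem kap_zero {s : ℝ} (h : s ≤ -1) : kap s = 0 := by
  unfold kap
  rw [intervalIntegral.integral_symm, neg_eq_zero]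
  apply intervalIntegral.integral_zero_ae
  refine Eventually.of_forall fun x hx => ?_
  rw [uIoc_of_le h] at hx
  exact sg_zero hx.2

theorem kap_nonneg (s : ℝ) : 0 ≤ kap s := by
  rcases le_total s (-1) with h | h
  · rw [kap_zero h]
  · rw [← kap_zero (le_refl (-1 : ℝ))]
    exact kap_mono h

theorem kap_sub (s : ℝ) : kap s - kap (-s) = s := by
  have h1 : ∀ s : ℝ, HasDerivAt (fun s => kap s - kap (-s) - s) 0 s := by
    intro s
    have e1 := (kap_hasDerivAt s).sub ((kap_hasDerivAt (-s)).comp s (hasDerivAt_neg s))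
    have e2 : HasDerivAt (fun s => kap s - kap (-s) - s) (sg s - sg (-s) * -1 - 1) s :=
      e1.sub (hasDerivAt_id s)
    refine e2.congr_deriv ?_
    have := sg_symm s
    linarith
  have h2 := is_const_of_deriv_eq_zero (fun s => (h1 s).differentiableAt) (fun s => (h1 s).deriv)
    s 0
  simp only [neg_zero, sub_self] at h2
  linarith

theorem kap_self {s : ℝ} (h : 1 ≤ s) : kap s = s := by
  have h1 := kap_sub s
  rw [kap_zero (by linarith : -s ≤ -1)] at h1
  linarith

theorem le_kap (s : ℝ) : s ≤ kap s := by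
  have h1 := kap_sub s
  have h2 := kap_nonneg (-s)
  linarith

theorem kap_le (s : ℝ) : kap s ≤ max s 0 + 1 := by
  rcases le_total s 1 with h | h
  · have h1 := kap_mono h
    rw [kap_self le_rfl] at h1
    have := le_max_right s 0
    linarith
  · rw [kap_self h]
    have := le_max_left s 0
    linarith

/-! ### the regularised maximum -/

/-- regularised maximum -/
def rmax (s t : ℝ) : ℝ := t + kap (s - t)

theorem rmax_right {s t : ℝ} (h : s + 1 ≤ t) : rmax s t = t := by
  rw [rmax, kap_zero (by linarith), add_zero]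

theorem rmax_left {s t : ℝ} (h : t + 1 ≤ s) : rmax s t = s := by
  rw [rmax, kap_self (by linarith)]
  ring

theorem le_rmax_left (s t : ℝ) : s ≤ rmax s t := by
  have := le_kap (s - t)
  unfold rmax
  linarith

theorem le_rmax_right (s t : ℝ) : t ≤ rmax s t := by
  have := kap_nonneg (s - t)
  unfold rmax
  linarith

theorem rmax_le (s t : ℝ) : rmax s t ≤ max s t + 1 := by
  have h1 := kap_le (s - t)
  unfold rmax
  rcases le_total s t with h | h
  · rw [max_eq_right (by linarith : s - t ≤ 0)] at h1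
    rw [max_eq_right h]
    linarith
  · rw [max_eq_left (by linarith : (0 : ℝ) ≤ s - t)] at h1
    rw [max_eq_left h]
    linarith

/-! ### the regularised logarithm -/

/-- regularised logarithm at level `-T` -/
def KT (T x : ℝ) : ℝ := if x ≤ Real.exp (-1 - T) then -T else kap (Real.log x + T) - T

theorem KT_of_pos (T : ℝ) {x : ℝ} (hx : 0 < x) : KT T x = kap (Real.log x + T) - T := by
  unfold KT
  split_ifs with h
  · have : Real.log x ≤ -1 - T := by
      rw [← Real.log_exp (-1 - T)]
      exact Real.log_le_log hx h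
    rw [kap_zero (by linarith)]
    ring
  · rfl

theorem KT_of_lt (T : ℝ) {x : ℝ} (hx : x ≤ Real.exp (-1 - T)) : KT T x = -T := by
  unfold KT
  rw [if_pos hx]

theorem KT_eventually_pos (T : ℝ) {x : ℝ} (hx : 0 < x) :
    KT T =ᶠ[𝓝 x] fun x => kap (Real.log x + T) - T := by
  filter_upwards [Ioi_mem_nhds hx] with y hy
  exact KT_of_pos T hy

theorem KT_eventually_lt (T : ℝ) {x : ℝ} (hx : x < Real.exp (-1 - T)) :
    KT T =ᶠ[𝓝 x] fun x => -T := by
  filter_upwards [Iio_mem_nhds hx] with y hy
  exact KT_of_lt T (le_of_lt hy)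

theorem KT_contDiff (T : ℝ) : ContDiff ℝ ∞ (KT T) := by
  rw [contDiff_iff_contDiffAt]
  intro x
  rcases lt_or_ge x (Real.exp (-1 - T)) with h | h
  · exact contDiffAt_const.congr_of_eventuallyEq (KT_eventually_lt T h)
  · have hx : 0 < x := lt_of_lt_of_le (Real.exp_pos _) h
    refine ContDiffAt.congr_of_eventuallyEq ?_ (KT_eventually_pos T hx)
    exact (kap_contDiff.contDiffAt.comp x
      ((Real.contDiffAt_log.2 hx.ne').add contDiffAt_const)).sub contDiffAt_const

theorem KT_ge (T x : ℝ) : -T ≤ KT T x := by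
  unfold KT
  split_ifs with h
  · exact le_rfl
  · have := kap_nonneg (Real.log x + T)
    linarith

theorem log_le_KT (T : ℝ) {x : ℝ} (hx : 0 < x) : Real.log x ≤ KT T x := by
  rw [KT_of_pos T hx]
  have := le_kap (Real.log x + T)
  linarith

theorem KT_eq_log {T x : ℝ} (hx : Real.exp (1 - T) ≤ x) : KT T x = Real.log x := by
  have h0 : 0 < x := lt_of_lt_of_le (Real.exp_pos _) hx
  rw [KT_of_pos T h0]
  have : 1 - T ≤ Real.log x := by
    rw [← Real.log_exp (1 - T)]
    exact Real.log_le_log (Real.exp_pos _) hx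
  rw [kap_self (by linarith)]
  ring

theorem KT_le_of_log_le {T x a : ℝ} (ha : 0 < x → Real.log x ≤ a) : KT T x ≤ max a (-T) + 1 := by
  rcases le_or_gt x 0 with h | h
  · rw [KT_of_lt T (h.trans (Real.exp_pos _).le)]
    have := le_max_right a (-T)
    linarith
  · rw [KT_of_pos T h]
    have h1 := kap_le (Real.log x + T)
    have h2 := ha h
    have h3 : max (Real.log x + T) 0 ≤ max a (-T) + T := by
      apply max_le
      · have := le_max_left a (-T)
        linarith
      · have := le_max_right a (-T)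
        linarith
    linarith

theorem lt_of_KT_gt {T x : ℝ} (h : 1 - T < KT T x) : Real.exp (1 - T) < x := by
  by_contra hx
  rw [not_lt] at hx
  rcases le_or_gt x 0 with h0 | h0
  · rw [KT_of_lt T (h0.trans (Real.exp_pos _).le)] at h
    linarith
  · rw [KT_of_pos T h0] at h
    have h1 : Real.log x ≤ 1 - T := by
      rw [← Real.log_exp (1 - T)]
      exact Real.log_le_log h0 hx
    have h2 : kap (Real.log x + T) ≤ kap 1 := kap_mono (by linarith)
    rw [kap_self le_rfl] at h2
    linarith

/-- the density `(x K'(x))'` -/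
def rho (T x : ℝ) : ℝ := deriv (KT T) x + x * deriv (deriv (KT T)) x

theorem KT_deriv_contDiff (T : ℝ) : ContDiff ℝ ∞ (deriv (KT T)) := by
  have h := KT_contDiff T
  rw [show (∞ : WithTop ℕ∞) = ∞ + 1 from rfl, contDiff_succ_iff_deriv] at h
  exact h.2.2

theorem KT_deriv2_contDiff (T : ℝ) : ContDiff ℝ ∞ (deriv (deriv (KT T))) := by
  have h := KT_deriv_contDiff T
  rw [show (∞ : WithTop ℕ∞) = ∞ + 1 from rfl, contDiff_succ_iff_deriv] at h
  exact h.2.2

theorem rho_contDiff (T : ℝ) : ContDiff ℝ ∞ (rho T) :=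
  (KT_deriv_contDiff T).add (contDiff_id.mul (KT_deriv2_contDiff T))

theorem KT_deriv_of_pos (T : ℝ) {x : ℝ} (hx : 0 < x) :
    deriv (KT T) x = sg (Real.log x + T) / x := by
  rw [(KT_eventually_pos T hx).deriv_eq]
  have h1 : HasDerivAt (fun x => kap (Real.log x + T) - T) (sg (Real.log x + T) * x⁻¹) x := by
    have := (kap_hasDerivAt (Real.log x + T)).comp x
      ((Real.hasDerivAt_log hx.ne').add_const T)
    exact this.sub_const T
  rw [h1.deriv]
  rfl

theorem mul_KT_deriv_hasDerivAt (T x : ℝ) : HasDerivAt (fun x => x * deriv (KT T) x) (rho T x) x := by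
  have h1 := (hasDerivAt_id x).mul
    (((KT_deriv_contDiff T).differentiable (by simp)) x).hasDerivAt
  have h2 : rho T x = 1 * deriv (KT T) x + id x * deriv (deriv (KT T)) x := by
    simp [rho]
  rw [h2]
  exact h1

theorem rho_of_pos (T : ℝ) {x : ℝ} (hx : 0 < x) : rho T x = sg' (Real.log x + T) / x := by
  have h1 : (fun x => x * deriv (KT T) x) =ᶠ[𝓝 x] fun x => sg (Real.log x + T) := by
    filter_upwards [Ioi_mem_nhds hx] with y hy
    have hy' : (0 : ℝ) < y := hy
    rw [KT_deriv_of_pos T hy']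
    field_simp
  have h2 := (mul_KT_deriv_hasDerivAt T x).deriv
  rw [h1.deriv_eq] at h2
  have h3 : HasDerivAt (fun x => sg (Real.log x + T)) (sg' (Real.log x + T) * x⁻¹) x :=
    HasDerivAt.comp (h₂ := sg) x (sg_hasDerivAt (Real.log x + T))
      ((Real.hasDerivAt_log hx.ne').add_const T)
  rw [h3.deriv] at h2
  rw [← h2]
  rfl

theorem rho_of_lt (T : ℝ) {x : ℝ} (hx : x < Real.exp (-1 - T)) : rho T x = 0 := by
  have h1 : deriv (KT T) =ᶠ[𝓝 x] fun x => 0 := by
    filter_upwards [Iio_mem_nhds hx] with y hy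
    rw [(KT_eventually_lt T hy).deriv_eq]
    simp
  unfold rho
  rw [h1.deriv_eq, h1.eq_of_nhds]
  simp

theorem rho_nonneg (T x : ℝ) : 0 ≤ rho T x := by
  rcases le_or_gt x 0 with h | h
  · rw [rho_of_lt T (lt_of_le_of_lt h (Real.exp_pos _))]
  · rw [rho_of_pos T h]
    exact div_nonneg (sg'_nonneg _) h.le

theorem rho_of_gt {T x : ℝ} (hx : Real.exp (1 - T) < x) : rho T x = 0 := by
  have h0 : 0 < x := (Real.exp_pos _).trans hx
  have h1 : 1 - T < Real.log x := by
    rw [← Real.log_exp (1 - T)]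
    exact Real.log_lt_log (Real.exp_pos _) hx
  rw [rho_of_pos T h0, sg'_zero_of_gt (by linarith), zero_div]

end Vale.Agent.P290.H561
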