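import Vale.Agent.P267.H399.Wirt
import Vale.Agent.P290.H561.IPKap

/-!
# P290 / H561: complex Hessians of real functions on `ℂ²`, mixed discriminant
-/

set_option linter.unusedVariables false

open scoped ContDiff Topology ComplexConjugate ComplexOrder Matrix
open MeasureTheory Set Filter
open Vale.Agent.P267.FL (C2 dz dzb)

noncomputable section

namespace Vale.Agent.P290.H561

/-- `∂u/∂z_i` for real `u` -/
def D (u : C2 → ℝ) (i : Fin 2) (z : C2) : ℂ := dz i (fun y => (u y : ℂ)) z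

/-- `∂u/∂z̄_j` for real `u` -/
def Db (u : C2 → ℝ) (j : Fin 2) (z : C2) : ℂ := dzb j (fun y => (u y : ℂ)) z

/-- the complex Hessian `∂_i ∂̄_j u` of a real function -/
def H (u : C2 → ℝ) (z : C2) : Matrix (Fin 2) (Fin 2) ℂ := Matrix.of fun i j => dz i (Db u j) z

theorem H_apply (u : C2 → ℝ) (z : C2) (i j : Fin 2) : H u z i j = dz i (Db u j) z := rfl

theorem cx_contDiffAt {u : C2 → ℝ} {z : C2} {n : WithTop ℕ∞} (h : ContDiffAt ℝ n u z) :
    ContDiffAt ℝ n (fun y => (u y : ℂ)) z :=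
  Complex.ofRealCLM.contDiff.contDiffAt.comp z h

theorem cx_differentiableAt {u : C2 → ℝ} {z : C2} (h : DifferentiableAt ℝ u z) :
    DifferentiableAt ℝ (fun y => (u y : ℂ)) z :=
  Complex.ofRealCLM.differentiableAt.comp z h

theorem D_contDiffAt {u : C2 → ℝ} {z : C2} (h : ContDiffAt ℝ ∞ u z) (i : Fin 2) :
    ContDiffAt ℝ ∞ (D u i) z :=
  Vale.Agent.P267.FL.contDiffAt_dz (cx_contDiffAt h) (by simp) i

theorem Db_contDiffAt {u : C2 → ℝ} {z : C2} (h : ContDiffAt ℝ ∞ u z) (i : Fin 2) :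
    ContDiffAt ℝ ∞ (Db u i) z :=
  Vale.Agent.P267.FL.contDiffAt_dzb (cx_contDiffAt h) (by simp) i

theorem H_contDiffAt {u : C2 → ℝ} {z : C2} (h : ContDiffAt ℝ ∞ u z) (i j : Fin 2) :
    ContDiffAt ℝ ∞ (fun y => H u y i j) z :=
  Vale.Agent.P267.FL.contDiffAt_dz (Db_contDiffAt h j) (by simp) i

theorem one_le_inf : (1 : WithTop ℕ∞) ≤ ∞ := by norm_cast
theorem inf_ne_zero : (∞ : WithTop ℕ∞) ≠ 0 := by simp

theorem Db_eq_conj {u : C2 → ℝ} {z : C2} (h : DifferentiableAt ℝ u z) (j : Fin 2) :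
    Db u j z = conj (D u j z) := by
  have := Vale.Agent.P267.FL.dzb_conj (cx_differentiableAt h) j
  simp only [Complex.conj_ofReal] at this
  exact this

theorem D_congr {u v : C2 → ℝ} {z : C2} (h : u =ᶠ[𝓝 z] v) (i : Fin 2) : D u i z = D v i z :=
  Vale.Agent.P267.FL.dz_congr (h.mono fun y hy => by rw [hy]) i

theorem Db_congr {u v : C2 → ℝ} {z : C2} (h : u =ᶠ[𝓝 z] v) (i : Fin 2) : Db u i z = Db v i z :=
  Vale.Agent.P267.FL.dzb_congr (h.mono fun y hy => by rw [hy]) i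

theorem Db_congr' {u v : C2 → ℝ} {z : C2} (h : u =ᶠ[𝓝 z] v) (i : Fin 2) :
    Db u i =ᶠ[𝓝 z] Db v i := by
  filter_upwards [eventually_eventually_nhds.2 h] with y hy
  exact Db_congr hy i

theorem H_congr {u v : C2 → ℝ} {z : C2} (h : u =ᶠ[𝓝 z] v) : H u z = H v z := by
  ext i j
  exact Vale.Agent.P267.FL.dz_congr (Db_congr' h j) i

theorem D_add {u v : C2 → ℝ} {z : C2} (hu : DifferentiableAt ℝ u z) (hv : DifferentiableAt ℝ v z)
    (i : Fin 2) : D (fun y => u y + v y) i z = D u i z + D v i z := by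
  have := Vale.Agent.P267.FL.dz_add (cx_differentiableAt hu) (cx_differentiableAt hv) i
  unfold D
  rw [← this]
  simp only [Complex.ofReal_add]

theorem Db_add {u v : C2 → ℝ} {z : C2} (hu : DifferentiableAt ℝ u z) (hv : DifferentiableAt ℝ v z)
    (i : Fin 2) : Db (fun y => u y + v y) i z = Db u i z + Db v i z := by
  have := Vale.Agent.P267.FL.dzb_add (cx_differentiableAt hu) (cx_differentiableAt hv) i
  unfold Db
  rw [← this]
  simp only [Complex.ofReal_add]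

theorem D_sub {u v : C2 → ℝ} {z : C2} (hu : DifferentiableAt ℝ u z) (hv : DifferentiableAt ℝ v z)
    (i : Fin 2) : D (fun y => u y - v y) i z = D u i z - D v i z := by
  have := Vale.Agent.P267.FL.dz_sub (cx_differentiableAt hu) (cx_differentiableAt hv) i
  unfold D
  rw [← this]
  simp only [Complex.ofReal_sub]

theorem Db_sub {u v : C2 → ℝ} {z : C2} (hu : DifferentiableAt ℝ u z) (hv : DifferentiableAt ℝ v z)
    (i : Fin 2) : Db (fun y => u y - v y) i z = Db u i z - Db v i z := by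
  have := Vale.Agent.P267.FL.dzb_sub (cx_differentiableAt hu) (cx_differentiableAt hv) i
  unfold Db
  rw [← this]
  simp only [Complex.ofReal_sub]

theorem ContDiffAt.ev {u : C2 → ℝ} {z : C2} (hu : ContDiffAt ℝ ∞ u z) :
    ∀ᶠ y in 𝓝 z, DifferentiableAt ℝ u y := by
  have := (hu.of_le (m := 1) one_le_inf).eventually (by simp)
  filter_upwards [this] with y hy
  exact hy.differentiableAt (by simp)

theorem ContDiffAt.evs {u : C2 → ℝ} {z : C2} (hu : ContDiffAt ℝ ∞ u z) (n : ℕ) :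
    ∀ᶠ y in 𝓝 z, ContDiffAt ℝ n u y :=
  (hu.of_le (m := (n : WithTop ℕ∞)) (by exact_mod_cast le_top)).eventually (by simp)

theorem diffAt {u : C2 → ℝ} {z : C2} (hu : ContDiffAt ℝ ∞ u z) : DifferentiableAt ℝ u z :=
  hu.differentiableAt inf_ne_zero

theorem diffAtC {u : C2 → ℂ} {z : C2} (hu : ContDiffAt ℝ ∞ u z) : DifferentiableAt ℝ u z :=
  hu.differentiableAt inf_ne_zero

theorem H_add {u v : C2 → ℝ} {z : C2} (hu : ContDiffAt ℝ ∞ u z) (hv : ContDiffAt ℝ ∞ v z) :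
    H (fun y => u y + v y) z = H u z + H v z := by
  ext i j
  rw [Matrix.add_apply, H_apply, H_apply, H_apply,
    ← Vale.Agent.P267.FL.dz_add (diffAtC (Db_contDiffAt hu j)) (diffAtC (Db_contDiffAt hv j)) i]
  apply Vale.Agent.P267.FL.dz_congr
  filter_upwards [ContDiffAt.ev hu, ContDiffAt.ev hv] with y h1 h2
  exact Db_add h1 h2 j

theorem H_sub {u v : C2 → ℝ} {z : C2} (hu : ContDiffAt ℝ ∞ u z) (hv : ContDiffAt ℝ ∞ v z) :
    H (fun y => u y - v y) z = H u z - H v z := by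
  ext i j
  rw [Matrix.sub_apply, H_apply, H_apply, H_apply,
    ← Vale.Agent.P267.FL.dz_sub (diffAtC (Db_contDiffAt hu j)) (diffAtC (Db_contDiffAt hv j)) i]
  apply Vale.Agent.P267.FL.dz_congr
  filter_upwards [ContDiffAt.ev hu, ContDiffAt.ev hv] with y h1 h2
  exact Db_sub h1 h2 j

/-- composition with a real function -/
theorem fderiv_cx_comp {h : ℝ → ℝ} {u : C2 → ℝ} {z : C2} (hh : DifferentiableAt ℝ h (u z))
    (hu : DifferentiableAt ℝ u z) :
    fderiv ℝ (fun y => ((h (u y) : ℝ) : ℂ)) z =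
      ((deriv h (u z) : ℝ) : ℂ) • fderiv ℝ (fun y => (u y : ℂ)) z := by
  have h1 : HasFDerivAt (fun y => ((h (u y) : ℝ) : ℂ))
      (Complex.ofRealCLM.comp (deriv h (u z) • fderiv ℝ u z)) z :=
    Complex.ofRealCLM.hasFDerivAt.comp z (hh.hasDerivAt.comp_hasFDerivAt z hu.hasFDerivAt)
  have h2 : HasFDerivAt (fun y => (u y : ℂ)) (Complex.ofRealCLM.comp (fderiv ℝ u z)) z :=
    Complex.ofRealCLM.hasFDerivAt.comp z hu.hasFDerivAt
  rw [h1.fderiv, h2.fderiv]
  ext v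
  simp

theorem D_comp {h : ℝ → ℝ} {u : C2 → ℝ} {z : C2} (hh : DifferentiableAt ℝ h (u z))
    (hu : DifferentiableAt ℝ u z) (i : Fin 2) :
    D (fun y => h (u y)) i z = ((deriv h (u z) : ℝ) : ℂ) * D u i z := by
  unfold D dz
  rw [fderiv_cx_comp hh hu]
  simp only [smul_apply, smul_eq_mul]
  ring

theorem Db_comp {h : ℝ → ℝ} {u : C2 → ℝ} {z : C2} (hh : DifferentiableAt ℝ h (u z))
    (hu : DifferentiableAt ℝ u z) (i : Fin 2) :
    Db (fun y => h (u y)) i z = ((deriv h (u z) : ℝ) : ℂ) * Db u i z := by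
  unfold Db dzb
  rw [fderiv_cx_comp hh hu]
  simp only [smul_apply, smul_eq_mul]
  ring

/-- rank one matrix `(D u)_i (Db v)_j` -/
def R1 (u v : C2 → ℝ) (z : C2) : Matrix (Fin 2) (Fin 2) ℂ := Matrix.of fun i j => D u i z * Db v j z

theorem R1_apply (u v : C2 → ℝ) (z : C2) (i j : Fin 2) : R1 u v z i j = D u i z * Db v j z := rfl

theorem H_comp {h : ℝ → ℝ} {u : C2 → ℝ} {z : C2} (hh : ContDiff ℝ ∞ h)
    (hu : ContDiffAt ℝ ∞ u z) :
    H (fun y => h (u y)) z = ((deriv (deriv h) (u z) : ℝ) : ℂ) • R1 u u z +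
      ((deriv h (u z) : ℝ) : ℂ) • H u z := by
  have hh' : ContDiff ℝ ∞ (deriv h) := by
    rw [show (∞ : WithTop ℕ∞) = ∞ + 1 from rfl, contDiff_succ_iff_deriv] at hh
    exact hh.2.2
  ext i j
  rw [H_apply]
  have h1 : Db (fun y => h (u y)) j =ᶠ[𝓝 z] fun y => ((deriv h (u y) : ℝ) : ℂ) * Db u j y := by
    filter_upwards [ContDiffAt.ev hu] with y h1
    exact Db_comp ((hh.differentiable inf_ne_zero) _) h1 j
  rw [Vale.Agent.P267.FL.dz_congr h1]
  have h2 : DifferentiableAt ℝ (fun y => ((deriv h (u y) : ℝ) : ℂ)) z :=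
    cx_differentiableAt (((hh'.differentiable inf_ne_zero) _).comp z (diffAt hu))
  rw [Vale.Agent.P267.FL.dz_mul h2 (diffAtC (Db_contDiffAt hu j))]
  have h3 : dz i (fun y => ((deriv h (u y) : ℝ) : ℂ)) z =
      ((deriv (deriv h) (u z) : ℝ) : ℂ) * D u i z :=
    D_comp ((hh'.differentiable inf_ne_zero) _) (diffAt hu) i
  rw [h3]
  simp only [Matrix.add_apply, Matrix.smul_apply, smul_eq_mul, R1_apply, H_apply]
  ring

theorem D_const_mul {u : C2 → ℝ} {z : C2} (c : ℝ) (hu : DifferentiableAt ℝ u z) (i : Fin 2) :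
    D (fun y => c * u y) i z = c * D u i z := by
  have := D_comp (h := fun x => c * x) (z := z) (differentiableAt_id.const_mul c) hu i
  rw [this]
  congr 2
  rw [deriv_const_mul _ differentiableAt_fun_id]
  simp

theorem H_const_mul {u : C2 → ℝ} {z : C2} (c : ℝ) (hu : ContDiffAt ℝ ∞ u z) :
    H (fun y => c * u y) z = (c : ℂ) • H u z := by
  have h0 : deriv (fun x : ℝ => c * x) = fun _ => c := by
    funext x
    rw [deriv_const_mul _ differentiableAt_fun_id]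
    simp
  have := H_comp (h := fun x => c * x) (z := z) (contDiff_const.mul contDiff_id) hu
  rw [this, h0]
  simp

theorem H_const (c : ℝ) (z : C2) : H (fun _ => c) z = 0 := by
  ext i j
  rw [H_apply]
  have : Db (fun _ => c) j = fun _ => 0 := by
    funext y
    exact Vale.Agent.P267.FL.dzb_const _ _ _
  rw [this]
  simp

/-! ### squared absolute value of a holomorphic function -/

/-- squared absolute value -/
def nsq (f : C2 → ℂ) (z : C2) : ℝ := Complex.normSq (f z)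

theorem nsq_cx (f : C2 → ℂ) : (fun y => (nsq f y : ℂ)) = fun y => f y * conj (f y) := by
  funext y
  exact (Complex.mul_conj (f y)).symm

theorem hol_contDiffAt {f : C2 → ℂ} {z : C2} (hf : AnalyticAt ℂ f z) : ContDiffAt ℝ ∞ f z :=
  (hf.restrictScalars (𝕜 := ℝ)).contDiffAt

theorem conj_contDiffAt {f : C2 → ℂ} {z : C2} (hf : ContDiffAt ℝ ∞ f z) :
    ContDiffAt ℝ ∞ (fun y => conj (f y)) z :=
  Complex.conjCLE.contDiff.contDiffAt.comp z hf

theorem nsq_contDiffAt {f : C2 → ℂ} {z : C2} (hf : ContDiffAt ℝ ∞ f z) :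
    ContDiffAt ℝ ∞ (nsq f) z := by
  have h1 : nsq f = fun y => (f y * conj (f y)).re := by
    funext y
    rw [Complex.mul_conj, Complex.ofReal_re]
    rfl
  rw [h1]
  exact Complex.reCLM.contDiff.contDiffAt.comp z (hf.mul (conj_contDiffAt hf))

theorem Db_nsq {f : C2 → ℂ} {z : C2} (hf : AnalyticAt ℂ f z) (j : Fin 2) :
    Db (nsq f) j z = f z * conj (dz j f z) := by
  unfold Db
  rw [nsq_cx]
  have h1 : DifferentiableAt ℝ f z := diffAtC (hol_contDiffAt hf)
  rw [Vale.Agent.P267.FL.dzb_mul h1 (Vale.Agent.P267.FL.differentiableAt_conj h1),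
    Vale.Agent.P267.FL.dzb_conj h1, Vale.Agent.P267.FL.dzb_of_hol hf.differentiableAt]
  ring

theorem D_nsq {f : C2 → ℂ} {z : C2} (hf : AnalyticAt ℂ f z) (j : Fin 2) :
    D (nsq f) j z = conj (f z) * dz j f z := by
  unfold D
  rw [nsq_cx]
  have h1 : DifferentiableAt ℝ f z := diffAtC (hol_contDiffAt hf)
  rw [Vale.Agent.P267.FL.dz_mul h1 (Vale.Agent.P267.FL.differentiableAt_conj h1),
    Vale.Agent.P267.FL.dz_conj h1, Vale.Agent.P267.FL.dzb_of_hol hf.differentiableAt]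
  simp
  ring

/-- rank one matrix `f_i conj f_j` -/
def R2 (f : C2 → ℂ) (z : C2) : Matrix (Fin 2) (Fin 2) ℂ :=
  Matrix.of fun i j => dz i f z * conj (dz j f z)

theorem R2_apply (f : C2 → ℂ) (z : C2) (i j : Fin 2) : R2 f z i j = dz i f z * conj (dz j f z) := rfl

theorem H_nsq {f : C2 → ℂ} {z : C2} (hf : AnalyticAt ℂ f z) : H (nsq f) z = R2 f z := by
  ext i j
  rw [H_apply, R2_apply]
  have h1 : Db (nsq f) j =ᶠ[𝓝 z] fun y => f y * conj (dz j f y) := by
    filter_upwards [hf.eventually_analyticAt] with y hy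
    exact Db_nsq hy j
  have h2 := Vale.Agent.P267.FL.hol_dz hf j
  have h3 : DifferentiableAt ℝ (dz j f) z := diffAtC (hol_contDiffAt h2)
  rw [Vale.Agent.P267.FL.dz_congr h1, Vale.Agent.P267.FL.dz_mul (diffAtC (hol_contDiffAt hf))
    (Vale.Agent.P267.FL.differentiableAt_conj h3), Vale.Agent.P267.FL.dz_conj h3,
    Vale.Agent.P267.FL.dzb_of_hol h2.differentiableAt]
  simp

/-- regularised `log |f|²` -/
def psi (T : ℝ) (f : C2 → ℂ) (z : C2) : ℝ := KT T (nsq f z)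

theorem psi_contDiffAt (T : ℝ) {f : C2 → ℂ} {z : C2} (hf : AnalyticAt ℂ f z) :
    ContDiffAt ℝ ∞ (psi T f) z :=
  (KT_contDiff T).contDiffAt.comp z (nsq_contDiffAt (hol_contDiffAt hf))

theorem H_psi (T : ℝ) {f : C2 → ℂ} {z : C2} (hf : AnalyticAt ℂ f z) :
    H (psi T f) z = (rho T (nsq f z) : ℂ) • R2 f z := by
  have h1 := H_comp (z := z) (KT_contDiff T) (nsq_contDiffAt (hol_contDiffAt hf))
  have h2 : (fun y => KT T (nsq f y)) = psi T f := rfl
  rw [h2] at h1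
  rw [h1, H_nsq hf]
  ext i j
  simp only [Matrix.add_apply, Matrix.smul_apply, smul_eq_mul, R1_apply, R2_apply, D_nsq hf,
    Db_nsq hf, rho]
  have h3 : (nsq f z : ℂ) = f z * conj (f z) := congrFun (nsq_cx f) z
  push_cast
  rw [h3]
  ring

/-! ### mixed discriminant -/

/-- mixed discriminant of `2 × 2` matrices -/
def mxd (A B : Matrix (Fin 2) (Fin 2) ℂ) : ℂ :=
  A 0 0 * B 1 1 + A 1 1 * B 0 0 - A 0 1 * B 1 0 - A 1 0 * B 0 1

theorem mxd_comm (A B : Matrix (Fin 2) (Fin 2) ℂ) : mxd A B = mxd B A := by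
  unfold mxd
  ring

theorem mxd_add_left (A B C : Matrix (Fin 2) (Fin 2) ℂ) : mxd (A + B) C = mxd A C + mxd B C := by
  simp only [mxd, Matrix.add_apply]
  ring

theorem mxd_sub_left (A B C : Matrix (Fin 2) (Fin 2) ℂ) : mxd (A - B) C = mxd A C - mxd B C := by
  simp only [mxd, Matrix.sub_apply]
  ring

theorem mxd_smul_left (c : ℂ) (A C : Matrix (Fin 2) (Fin 2) ℂ) : mxd (c • A) C = c * mxd A C := by
  simp only [mxd, Matrix.smul_apply, smul_eq_mul]
  ring

theorem mxd_zero_left (C : Matrix (Fin 2) (Fin 2) ℂ) : mxd 0 C = 0 := by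
  simp [mxd]

theorem mxd_add_right (A B C : Matrix (Fin 2) (Fin 2) ℂ) : mxd C (A + B) = mxd C A + mxd C B := by
  simp only [mxd, Matrix.add_apply]
  ring

theorem mxd_sub_right (A B C : Matrix (Fin 2) (Fin 2) ℂ) : mxd C (A - B) = mxd C A - mxd C B := by
  simp only [mxd, Matrix.sub_apply]
  ring

theorem mxd_smul_right (c : ℂ) (A C : Matrix (Fin 2) (Fin 2) ℂ) : mxd C (c • A) = c * mxd C A := by
  simp only [mxd, Matrix.smul_apply, smul_eq_mul]
  ring

theorem mxd_zero_right (C : Matrix (Fin 2) (Fin 2) ℂ) : mxd C 0 = 0 := by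
  simp [mxd]

theorem mxd_self (A : Matrix (Fin 2) (Fin 2) ℂ) : mxd A A = 2 * A.det := by
  rw [Matrix.det_fin_two]
  unfold mxd
  ring

/-- `(∂∂̄u ∧ ∂∂̄v)` up to normalisation -/
def mx (u v : C2 → ℝ) (z : C2) : ℝ := (mxd (H u z) (H v z)).re

theorem mx_comm (u v : C2 → ℝ) (z : C2) : mx u v z = mx v u z := by
  unfold mx
  rw [mxd_comm]

theorem mxd_contDiffAt {A B : C2 → Matrix (Fin 2) (Fin 2) ℂ} {z : C2}
    (hA : ∀ i j, ContDiffAt ℝ ∞ (fun y => A y i j) z)
    (hB : ∀ i j, ContDiffAt ℝ ∞ (fun y => B y i j) z) :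
    ContDiffAt ℝ ∞ (fun y => mxd (A y) (B y)) z :=
  ((((hA 0 0).mul (hB 1 1)).add ((hA 1 1).mul (hB 0 0))).sub ((hA 0 1).mul (hB 1 0))).sub
    ((hA 1 0).mul (hB 0 1))

theorem mx_contDiffAt {u v : C2 → ℝ} {z : C2} (hu : ContDiffAt ℝ ∞ u z)
    (hv : ContDiffAt ℝ ∞ v z) : ContDiffAt ℝ ∞ (mx u v) z :=
  Complex.reCLM.contDiff.contDiffAt.comp z (mxd_contDiffAt (H_contDiffAt hu) (H_contDiffAt hv))

theorem mxd_R2 (f g : C2 → ℂ) (z : C2) : mxd (R2 f z) (R2 g z) =
    Complex.normSq (dz 0 f z * dz 1 g z - dz 1 f z * dz 0 g z) := by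
  rw [← Complex.mul_conj]
  simp only [mxd, R2_apply, map_sub, map_mul]
  ring

theorem mx_psi (T : ℝ) {f g : C2 → ℂ} {z : C2} (hf : AnalyticAt ℂ f z) (hg : AnalyticAt ℂ g z) :
    mx (psi T f) (psi T g) z = rho T (nsq f z) * rho T (nsq g z) *
      Complex.normSq (dz 0 f z * dz 1 g z - dz 1 f z * dz 0 g z) := by
  unfold mx
  rw [H_psi T hf, H_psi T hg, mxd_smul_left, mxd_smul_right, mxd_R2, ← mul_assoc,
    ← Complex.ofReal_mul, ← Complex.ofReal_mul, Complex.ofReal_re]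

theorem mx_psi_nonneg (T : ℝ) {f g : C2 → ℂ} {z : C2} (hf : AnalyticAt ℂ f z)
    (hg : AnalyticAt ℂ g z) : 0 ≤ mx (psi T f) (psi T g) z := by
  rw [mx_psi T hf hg]
  exact mul_nonneg (mul_nonneg (rho_nonneg _ _) (rho_nonneg _ _)) (Complex.normSq_nonneg _)

/-! ### plurisubharmonicity -/

theorem posSemidef_R2 (f : C2 → ℂ) (z : C2) : (R2 f z).PosSemidef := by
  have := Matrix.posSemidef_vecMulVec_self_star (fun i => dz i f z)
  exact this

theorem posSemidef_R1 {u : C2 → ℝ} {z : C2} (hu : DifferentiableAt ℝ u z) :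
    (R1 u u z).PosSemidef := by
  have := Matrix.posSemidef_vecMulVec_self_star (fun i => D u i z)
  convert this using 1
  ext i j
  rw [R1_apply, Db_eq_conj hu]
  rfl

theorem real_smul_psd {c : ℝ} (hc : 0 ≤ c) {A : Matrix (Fin 2) (Fin 2) ℂ} (hA : A.PosSemidef) :
    ((c : ℂ) • A).PosSemidef :=
  hA.smul (by exact_mod_cast hc)

theorem psi_psd (T : ℝ) {f : C2 → ℂ} {z : C2} (hf : AnalyticAt ℂ f z) :
    (H (psi T f) z).PosSemidef := by
  rw [H_psi T hf]
  exact real_smul_psd (rho_nonneg _ _) (posSemidef_R2 f z)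

/-- regularised maximum of two functions -/
def rM (u v : C2 → ℝ) (z : C2) : ℝ := rmax (u z) (v z)

theorem rM_contDiffAt {u v : C2 → ℝ} {z : C2} (hu : ContDiffAt ℝ ∞ u z)
    (hv : ContDiffAt ℝ ∞ v z) : ContDiffAt ℝ ∞ (rM u v) z :=
  hv.add (kap_contDiff.contDiffAt.comp z (hu.sub hv))

theorem H_rM {u v : C2 → ℝ} {z : C2} (hu : ContDiffAt ℝ ∞ u z) (hv : ContDiffAt ℝ ∞ v z) :
    H (rM u v) z = (sg (u z - v z) : ℂ) • H u z + ((1 - sg (u z - v z) : ℝ) : ℂ) • H v z +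
      (sg' (u z - v z) : ℂ) • R1 (fun y => u y - v y) (fun y => u y - v y) z := by
  have h1 : rM u v = fun y => v y + kap (u y - v y) := rfl
  have h2 : ContDiffAt ℝ ∞ (fun y => u y - v y) z := hu.sub hv
  have h4 : ContDiffAt ℝ ∞ (fun y => kap (u y - v y)) z := kap_contDiff.contDiffAt.comp z h2
  rw [h1, H_add hv h4, H_comp kap_contDiff h2, kap_deriv, H_sub hu hv]
  have h3 : deriv sg (u z - v z) = sg' (u z - v z) := rfl
  rw [h3]
  ext i j
  simp only [Matrix.add_apply, Matrix.smul_apply, Matrix.sub_apply, smul_eq_mul]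
  push_cast
  ring

theorem rM_psd {u v : C2 → ℝ} {z : C2} (hu : ContDiffAt ℝ ∞ u z) (hv : ContDiffAt ℝ ∞ v z)
    (h1 : (H u z).PosSemidef) (h2 : (H v z).PosSemidef) : (H (rM u v) z).PosSemidef := by
  rw [H_rM hu hv]
  refine ((real_smul_psd (sg_nonneg _) h1).add (real_smul_psd ?_ h2)).add
    (real_smul_psd (sg'_nonneg _) (posSemidef_R1 ?_))
  · have := sg_le_one (u z - v z)
    linarith
  · exact (diffAt hu).sub (diffAt hv)

theorem mx_self_nonneg {u : C2 → ℝ} {z : C2} (h : (H u z).PosSemidef) : 0 ≤ mx u u z := by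
  unfold mx
  rw [mxd_self]
  have h1 := h.det_nonneg
  rw [Complex.le_def] at h1
  have h2 : (0 : ℝ) ≤ (H u z).det.re := h1.1
  simpa using h2

end Vale.Agent.P290.H561
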