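import Vale.Agent.P290.H220.Fields
import Vale.Agent.P290.H561.IPBridge

/-!
# P290 / H561: positivity of intersection numbers, unconditional (H220 + `locThm`)
-/

set_option linter.unusedVariables false
set_option linter.unusedSectionVars false

open scoped Manifold ContDiff ComplexConjugate Matrix
open Set Filter Topology

noncomputable section

namespace Vale.Agent.P290.H561

open Vale.Agent.P267.FL Vale.Agent.P267.H757 Vale.Agent.P267.H332
open Vale.Agent.P290.H220 (nIP OrdGe)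
open Vale.Agent.P290.H342 (Sing)

universe u

variable {X : Type u} [TopologicalSpace X] [ChartedSpace C2 X] [IsManifold 𝓘(ℂ, C2) ω X]
  [T2Space X] [CompactSpace X]

theorem sum_le_nIP {N N' : X → ℝ} (hN : IsNormFn C2 N) (hN' : IsNormFn C2 N')
    (S : Finset X) (hS : ∀ x, N x = 0 → N' x = 0 → x ∈ S) (a b : X → ℕ)
    (ha : ∀ p ∈ S, OrdGe N p (a p)) (hb : ∀ p ∈ S, OrdGe N' p (b p)) :
    (∑ p ∈ S, (a p * b p : ℝ)) ≤ (nIP N N').re :=
  H220.sum_le_nIP locThm hN hN' S hS a b ha hb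

theorem nIP_nonneg {N N' : X → ℝ} (hN : IsNormFn C2 N) (hN' : IsNormFn C2 N')
    (hf : ({x | N x = 0} ∩ {x | N' x = 0}).Finite) : 0 ≤ (nIP N N').re :=
  H220.nIP_nonneg locThm hN hN' hf

theorem le_nIP {N N' : X → ℝ} (hN : IsNormFn C2 N) (hN' : IsNormFn C2 N')
    (hf : ({x | N x = 0} ∩ {x | N' x = 0}).Finite) {p : X} (hp : N p = 0) (hp' : N' p = 0)
    {a b : ℕ} (ha : OrdGe N p a) (hb : OrdGe N' p b) : (a * b : ℝ) ≤ (nIP N N').re :=
  H220.le_nIP locThm hN hN' hf hp hp' ha hb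

theorem one_le_nIP {N N' : X → ℝ} (hN : IsNormFn C2 N) (hN' : IsNormFn C2 N')
    (hf : ({x | N x = 0} ∩ {x | N' x = 0}).Finite) (p : X) (hp : N p = 0) (hp' : N' p = 0) :
    1 ≤ (nIP N N').re := H220.one_le_nIP locThm hN hN' hf p hp hp'

theorem two_le_nIP {N N' : X → ℝ} (hN : IsNormFn C2 N) (hN' : IsNormFn C2 N')
    (hf : ({x | N x = 0} ∩ {x | N' x = 0}).Finite) (p : X) (hp : Sing C2 N p) (hp' : N' p = 0) :
    2 ≤ (nIP N N').re := H220.two_le_nIP locThm hN hN' hf p hp hp'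

theorem four_le_nIP {N N' : X → ℝ} (hN : IsNormFn C2 N) (hN' : IsNormFn C2 N')
    (hf : ({x | N x = 0} ∩ {x | N' x = 0}).Finite) (p : X) (hp : Sing C2 N p)
    (hp' : Sing C2 N' p) : 4 ≤ (nIP N N').re := H220.four_le_nIP locThm hN hN' hf p hp hp'

end Vale.Agent.P290.H561
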