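import Vale.Agent.P290.H561.IPStokes

/-!
# P290 / H561: the model `log max(|z_0 - p_0|², |z_1 - p_1|²)` has Monge-Ampere mass `π²`
-/

set_option linter.unusedVariables false
set_option linter.unusedSectionVars false

open scoped ContDiff Topology ComplexConjugate ComplexOrder Matrix
open MeasureTheory Set Filter Metric
open Vale.Agent.P267.FL (C2 dz dzb)

noncomputable section

namespace Vale.Agent.P290.H561

theorem rho_radial (T : ℝ) : ∫ y in Ioi (0 : ℝ), y * rho T (y ^ 2) = 1 / 2 := by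
  have hd : ∀ y : ℝ, HasDerivAt (fun y => (1 / 2 : ℝ) * (y ^ 2 * deriv (KT T) (y ^ 2)))
      (y * rho T (y ^ 2)) y := by
    intro y
    have h1 : HasDerivAt (fun y : ℝ => y ^ 2) (2 * y) y := by
      simpa using hasDerivAt_pow 2 y
    have h2 := HasDerivAt.comp (h₂ := fun x => x * deriv (KT T) x) y
      (mul_KT_deriv_hasDerivAt T (y ^ 2)) h1
    have h3 := h2.const_mul (1 / 2 : ℝ)
    refine HasDerivAt.congr_deriv h3 ?_
    ring
  have hcont : Continuous fun y : ℝ => y * rho T (y ^ 2) :=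
    continuous_id.mul ((rho_contDiff T).continuous.comp (continuous_pow 2))
  have hint : IntegrableOn (fun y : ℝ => y * rho T (y ^ 2)) (Ioi 0) := by
    apply Integrable.integrableOn
    apply hcont.integrable_of_hasCompactSupport
    refine HasCompactSupport.of_support_subset_isCompact
      (isCompact_Icc (a := -(Real.exp (1 - T) + 1)) (b := Real.exp (1 - T) + 1)) fun y hy => ?_
    by_contra h
    apply hy
    have he := Real.exp_pos (1 - T)
    have h1 : Real.exp (1 - T) + 1 < |y| := by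
      by_contra h2
      rw [not_lt] at h2
      exact h (abs_le.1 h2)
    have h2 : Real.exp (1 - T) < y ^ 2 := by
      rw [← sq_abs]
      nlinarith
    simp only [rho_of_gt h2, mul_zero]
  have ht : Tendsto (fun y => (1 / 2 : ℝ) * (y ^ 2 * deriv (KT T) (y ^ 2))) atTop (𝓝 (1 / 2)) := by
    apply Tendsto.congr' (f₁ := fun _ => (1 / 2 : ℝ)) _ tendsto_const_nhds
    filter_upwards [eventually_gt_atTop (Real.exp (1 - T) + 1)] with y hy
    have he := Real.exp_pos (1 - T)
    have h2 : Real.exp (1 - T) < y ^ 2 := by nlinarith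
    have h3 : 0 < y ^ 2 := he.trans h2
    have h4 : 1 - T < Real.log (y ^ 2) := by
      rw [← Real.log_exp (1 - T)]
      exact Real.log_lt_log he h2
    rw [KT_deriv_of_pos T h3, sg_one (by linarith), mul_one_div, div_self h3.ne', mul_one]
  have h := integral_Ioi_of_hasDerivAt_of_tendsto (hd 0).continuousAt.continuousWithinAt
    (fun y _ => hd y) hint ht
  rw [h]
  simp

/-- the total mass of the density `rho` on `ℂ` -/
theorem integral_rho (T : ℝ) : ∫ ζ : ℂ, rho T (Complex.normSq ζ) = Real.pi := by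
  have h1 : ∀ ζ : ℂ, rho T (Complex.normSq ζ) = (fun y : ℝ => rho T (y ^ 2)) ‖ζ‖ := by
    intro ζ
    rw [Complex.normSq_eq_norm_sq]
  simp_rw [h1]
  rw [integral_fun_norm_addHaar (volume : Measure ℂ) (fun y : ℝ => rho T (y ^ 2))]
  rw [Complex.finrank_real_complex]
  have h2 : (volume : Measure ℂ).real (ball 0 1) = Real.pi := by
    rw [Measure.real, Complex.volume_ball]
    simp
  rw [h2]
  have h3 : ∫ y in Ioi (0 : ℝ), y ^ (2 - 1) • rho T (y ^ 2) = 1 / 2 := by
    rw [← rho_radial T]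
    refine setIntegral_congr_fun measurableSet_Ioi fun y _ => ?_
    simp
  rw [h3, nsmul_eq_mul, smul_eq_mul]
  push_cast
  ring

/-- coordinate functions centered at `p` -/
def co (p : C2) (i : Fin 2) (z : C2) : ℂ := z i - p i

theorem co_analytic (p : C2) (i : Fin 2) (z : C2) : AnalyticAt ℂ (co p i) z :=
  ((ContinuousLinearMap.proj (R := ℂ) (φ := fun _ : Fin 2 => ℂ) i).analyticAt z).sub
    analyticAt_const

theorem dz_co (p : C2) (i j : Fin 2) (z : C2) : dz j (co p i) z = if j = i then 1 else 0 := by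
  rw [Vale.Agent.P267.FL.dz_of_hol (co_analytic p i z).differentiableAt]
  have h1 : HasFDerivAt (co p i)
      (ContinuousLinearMap.proj (R := ℂ) (φ := fun _ : Fin 2 => ℂ) i) z :=
    (ContinuousLinearMap.proj (R := ℂ) (φ := fun _ : Fin 2 => ℂ) i).hasFDerivAt.sub_const _
  rw [h1.fderiv]
  simp only [ContinuousLinearMap.proj_apply]
  by_cases h : j = i
  · subst h; simp
  · rw [if_neg h, Pi.single_eq_of_ne (Ne.symm h)]

theorem mx_co (T : ℝ) (p z : C2) : mx (psi T (co p 0)) (psi T (co p 1)) z =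
    ∏ i, rho T (Complex.normSq (z i - p i)) := by
  rw [mx_psi T (co_analytic p 0 z) (co_analytic p 1 z)]
  simp only [dz_co, Fin.prod_univ_two, nsq, co]
  simp

/-- `|z_i - p_i|` versus the norm -/
theorem norm_co_le (p z : C2) (i : Fin 2) : ‖co p i z‖ ≤ ‖z - p‖ := norm_le_pi_norm (z - p) i

theorem exists_co (p z : C2) : ∃ i, ‖co p i z‖ = ‖z - p‖ := by
  by_contra h
  push Not at h
  have h1 : ∀ i, ‖(z - p) i‖ < ‖z - p‖ := fun i =>
    lt_of_le_of_ne (norm_co_le p z i) (h i)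
  have h2 : 0 < ‖z - p‖ := lt_of_le_of_lt (norm_nonneg _) (h1 0)
  exact lt_irrefl _ ((pi_norm_lt_iff h2).2 h1)

theorem mass_co {T r : ℝ} {p : C2} (hr : 0 < r) (hT : Real.exp (1 - T) < r ^ 2) :
    ∫ z in ball p r, mx (psi T (co p 0)) (psi T (co p 1)) z = Real.pi ^ 2 := by
  have h0 : ∀ z, z ∉ ball p r → mx (psi T (co p 0)) (psi T (co p 1)) z = 0 := by
    intro z hz
    rw [mx_co]
    obtain ⟨i, hi⟩ := exists_co p z
    rw [mem_ball, dist_eq_norm, not_lt] at hz
    apply Finset.prod_eq_zero (Finset.mem_univ i)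
    apply rho_of_gt
    refine lt_of_lt_of_le hT ?_
    rw [Complex.normSq_eq_norm_sq]
    have h1 : ‖z i - p i‖ = ‖z - p‖ := hi
    rw [h1]
    exact pow_le_pow_left₀ hr.le hz 2
  rw [setIntegral_eq_integral_of_forall_compl_eq_zero h0]
  simp_rw [mx_co]
  rw [integral_fintype_prod_volume_eq_prod
    (f := fun (i : Fin 2) (ζ : ℂ) => rho T (Complex.normSq (ζ - p i)))]
  have h1 : ∀ i : Fin 2, ∫ ζ : ℂ, rho T (Complex.normSq (ζ - p i)) = Real.pi := by
    intro i
    rw [integral_sub_right_eq_self (fun ζ : ℂ => rho T (Complex.normSq ζ)) (p i)]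
    exact integral_rho T
  simp only [h1, Fin.prod_univ_two]
  ring

/-! ### zones -/

theorem H_psi_zero {T : ℝ} {f : C2 → ℂ} {z : C2} (hf : AnalyticAt ℂ f z)
    (h : 1 - T < psi T f z) : H (psi T f) z = 0 := by
  rw [H_psi T hf, rho_of_gt (lt_of_KT_gt h)]
  simp

/-- `psi T f / m` -/
def psm (m : ℕ) (T : ℝ) (f : C2 → ℂ) (z : C2) : ℝ := (m : ℝ)⁻¹ * psi T f z

theorem psm_contDiffAt (m : ℕ) (T : ℝ) {f : C2 → ℂ} {z : C2} (hf : AnalyticAt ℂ f z) :
    ContDiffAt ℝ ∞ (psm m T f) z := contDiffAt_const.mul (psi_contDiffAt T hf)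

theorem H_psm (m : ℕ) (T : ℝ) {f : C2 → ℂ} {z : C2} (hf : AnalyticAt ℂ f z) :
    H (psm m T f) z = (((m : ℝ)⁻¹ : ℝ) : ℂ) • H (psi T f) z :=
  H_const_mul _ (psi_contDiffAt T hf)

theorem psm_psd (m : ℕ) (T : ℝ) {f : C2 → ℂ} {z : C2} (hf : AnalyticAt ℂ f z) :
    (H (psm m T f) z).PosSemidef := by
  rw [H_psm m T hf]
  exact real_smul_psd (by positivity) (psi_psd T hf)

theorem mx_psm (m n : ℕ) (T : ℝ) {f g : C2 → ℂ} {z : C2} (hf : AnalyticAt ℂ f z)
    (hg : AnalyticAt ℂ g z) :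
    mx (psm m T f) (psm n T g) z = (m : ℝ)⁻¹ * (n : ℝ)⁻¹ * mx (psi T f) (psi T g) z := by
  unfold mx
  rw [H_psm m T hf, H_psm n T hg, mxd_smul_left, mxd_smul_right, ← mul_assoc,
    ← Complex.ofReal_mul, Complex.re_ofReal_mul]

theorem H_psm_zero {m : ℕ} (hm : 0 < m) {T C : ℝ} {f : C2 → ℂ} {z : C2} (hf : AnalyticAt ℂ f z)
    (h : -C ≤ psm m T f z) (hT : m * C + 1 < T) : H (psm m T f) z = 0 := by
  have hm' : (0 : ℝ) < m := by exact_mod_cast hm
  rw [H_psm m T hf, H_psi_zero hf, smul_zero]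
  have h1 : psi T f z = m * psm m T f z := by
    unfold psm
    field_simp
  rw [h1]
  have h2 : (m : ℝ) * (-C) ≤ m * psm m T f z := mul_le_mul_of_nonneg_left h hm'.le
  linarith

theorem zone_of {m n : ℕ} (hm : 0 < m) (hn : 0 < n) {T C : ℝ} {f g : C2 → ℂ} {z : C2}
    (hf : AnalyticAt ℂ f z) (hg : AnalyticAt ℂ g z)
    (h : -C ≤ psm m T f z ∨ -C ≤ psm n T g z) (hTm : m * (C + 1) + 1 < T)
    (hTn : n * (C + 1) + 1 < T) : Zone (psm m T f) (psm n T g) z := by
  by_cases h1 : psm m T f z + 1 < psm n T g z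
  · left
    refine ⟨h1, H_psm_zero hn hg (C := C + 1) ?_ hTn⟩
    rcases h with h | h <;> linarith
  by_cases h2 : psm n T g z + 1 < psm m T f z
  · right; left
    refine ⟨h2, H_psm_zero hm hf (C := C + 1) ?_ hTm⟩
    rcases h with h | h <;> linarith
  right; right
  rw [not_lt] at h1 h2
  refine ⟨H_psm_zero hm hf (C := C + 1) ?_ hTm, H_psm_zero hn hg (C := C + 1) ?_ hTn⟩
  · rcases h with h | h <;> linarith
  · rcases h with h | h <;> linarith

theorem psm_ge {m : ℕ} (hm : 0 < m) (T : ℝ) {f : C2 → ℂ} {z : C2} {c : ℝ} (hc : 0 < c)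
    (h : c ≤ nsq f z) : -|Real.log c| ≤ psm m T f z := by
  have hm' : (1 : ℝ) ≤ m := by exact_mod_cast hm
  have h1 : Real.log c ≤ psi T f z :=
    (Real.log_le_log hc h).trans (log_le_KT T (lt_of_lt_of_le hc h))
  have h2 : -|Real.log c| ≤ Real.log c := neg_abs_le _
  unfold psm
  have h3 : (m : ℝ)⁻¹ * (-|Real.log c|) ≤ (m : ℝ)⁻¹ * psi T f z :=
    mul_le_mul_of_nonneg_left (h2.trans h1) (by positivity)
  have h4 : (m : ℝ)⁻¹ ≤ 1 := inv_le_one_of_one_le₀ hm'
  have h5 := abs_nonneg (Real.log c)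
  nlinarith

/-- no common zeros on a compact set: uniform lower bound -/
theorem exists_lower {A : Set C2} (hA : IsCompact A) {f g : C2 → ℂ} (hf : ContinuousOn f A)
    (hg : ContinuousOn g A) (h0 : ∀ z ∈ A, f z = 0 → g z ≠ 0) :
    ∃ c : ℝ, 0 < c ∧ ∀ z ∈ A, c ≤ nsq f z ∨ c ≤ nsq g z := by
  rcases A.eq_empty_or_nonempty with h | h
  · exact ⟨1, one_pos, by simp [h]⟩
  have hc : ContinuousOn (fun z => max (nsq f z) (nsq g z)) A :=
    (Complex.continuous_normSq.comp_continuousOn hf).sup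
      (Complex.continuous_normSq.comp_continuousOn hg)
  obtain ⟨w, hw, hmin⟩ := hA.exists_isMinOn h hc
  refine ⟨max (nsq f w) (nsq g w), ?_, fun z hz => ?_⟩
  · rw [lt_max_iff]
    by_cases h1 : f w = 0
    · right
      exact Complex.normSq_pos.2 (h0 w hw h1)
    · left
      exact Complex.normSq_pos.2 h1
  · have := hmin hz
    exact le_max_iff.1 this

/-- the annulus -/
theorem annulus_compact (p : C2) (r s : ℝ) : IsCompact (closedBall p r \ ball p s) :=
  (isCompact_closedBall p r).diff isOpen_ball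

theorem exists_zone {p : C2} {r : ℝ} {f g : C2 → ℂ} (hr : 0 < r)
    (hf : ∀ z ∈ closedBall p r, AnalyticAt ℂ f z) (hg : ∀ z ∈ closedBall p r, AnalyticAt ℂ g z)
    (h0 : ∀ z ∈ closedBall p r, f z = 0 → g z = 0 → z = p) {m n : ℕ} (hm : 0 < m) (hn : 0 < n) :
    ∃ C : ℝ, 0 ≤ C ∧ (∀ z ∈ closedBall p r \ ball p (r / 2), ∀ T,
      -C ≤ psm m T f z ∨ -C ≤ psm n T g z) ∧
      ∀ T, m * (C + 1) + 1 < T → n * (C + 1) + 1 < T →
        ∀ z ∈ closedBall p r \ ball p (r / 2), Zone (psm m T f) (psm n T g) z := by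
  obtain ⟨c, hc, h1⟩ := exists_lower (annulus_compact p r (r / 2)) (f := f) (g := g)
    (fun z hz => (hf z hz.1).continuousAt.continuousWithinAt)
    (fun z hz => (hg z hz.1).continuousAt.continuousWithinAt) (by
      intro z hz h2 h3
      have h4 := h0 z hz.1 h2 h3
      subst h4
      exact hz.2 (mem_ball_self (by linarith)))
  refine ⟨|Real.log c|, abs_nonneg _, ?_, ?_⟩
  · intro z hz T
    rcases h1 z hz with h | h
    · exact Or.inl (psm_ge hm T hc h)
    · exact Or.inr (psm_ge hn T hc h)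
  · intro T hTm hTn z hz
    refine zone_of hm hn (hf z hz.1) (hg z hz.1) ?_ hTm hTn
    rcases h1 z hz with h | h
    · exact Or.inl (psm_ge hm T hc h)
    · exact Or.inr (psm_ge hn T hc h)

theorem psm_one (T : ℝ) (f : C2 → ℂ) : psm 1 T f = psi T f := by
  funext z
  simp [psm]

/-- the model function -/
def vm (p : C2) (S : ℝ) : C2 → ℝ := rM (psi S (co p 0)) (psi S (co p 1))

theorem vm_contDiffAt (p : C2) (S : ℝ) (z : C2) : ContDiffAt ℝ ∞ (vm p S) z :=
  rM_contDiffAt (psi_contDiffAt S (co_analytic p 0 z)) (psi_contDiffAt S (co_analytic p 1 z))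

theorem vm_psd (p : C2) (S : ℝ) (z : C2) : (H (vm p S) z).PosSemidef :=
  rM_psd (psi_contDiffAt S (co_analytic p 0 z)) (psi_contDiffAt S (co_analytic p 1 z))
    (psi_psd S (co_analytic p 0 z)) (psi_psd S (co_analytic p 1 z))

theorem vm_mass {p : C2} {r : ℝ} (hr : 0 < r) : ∃ S₀ : ℝ, ∀ S, S₀ < S →
    IntegrableOn (mx (vm p S) (vm p S)) (ball p r) ∧
      ∫ z in ball p r, mx (vm p S) (vm p S) z = Real.pi ^ 2 := by
  obtain ⟨C, hC, h1, h2⟩ := exists_zone (p := p) (r := r) (f := co p 0) (g := co p 1) hr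
    (fun z _ => co_analytic p 0 z) (fun z _ => co_analytic p 1 z) (by
      intro z _ h1 h2
      ext i
      fin_cases i
      · exact sub_eq_zero.1 h1
      · exact sub_eq_zero.1 h2) (m := 1) (n := 1) one_pos one_pos
  refine ⟨max (C + 2) (1 - Real.log (r ^ 2)), fun S hS => ?_⟩
  rw [max_lt_iff] at hS
  have h3 : Real.exp (1 - S) < r ^ 2 := by
    rw [← Real.exp_log (show 0 < r ^ 2 by positivity)]
    exact Real.exp_lt_exp.2 (by linarith)
  have h4 := h2 S (by norm_num; linarith) (by norm_num; linarith)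
  simp only [psm_one] at h4
  obtain ⟨_, i2, e2⟩ := main_id (B := ball p r) (K := closedBall p (r / 2)) isOpen_ball
    (isCompact_closedBall p _) (closedBall_subset_ball (by linarith))
    (fun z _ => psi_contDiffAt S (co_analytic p 0 z))
    (fun z _ => psi_contDiffAt S (co_analytic p 1 z))
    (fun z hz => h4 z ⟨ball_subset_closedBall hz.1, fun h => hz.2 (ball_subset_closedBall h)⟩)
  refine ⟨i2, ?_⟩
  have e3 := mass_co (p := p) hr h3
  rw [← e3, ← e2]
  rfl

theorem log_le_vm {p z : C2} (hz : z ≠ p) (S : ℝ) : 2 * Real.log ‖z - p‖ ≤ vm p S z := by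
  obtain ⟨i, hi⟩ := exists_co p z
  have h0 : 0 < ‖z - p‖ := norm_pos_iff.2 (sub_ne_zero.2 hz)
  have h1 : ∀ i, ‖co p i z‖ = ‖z - p‖ → 2 * Real.log ‖z - p‖ ≤ psi S (co p i) z := by
    intro i hi
    have h2 : nsq (co p i) z = ‖z - p‖ ^ 2 := by
      unfold nsq
      rw [Complex.normSq_eq_norm_sq, hi]
    have h3 := log_le_KT S (x := nsq (co p i) z) (by rw [h2]; positivity)
    rw [h2, Real.log_pow] at h3
    unfold psi
    rw [h2]
    exact_mod_cast h3
  fin_cases i
  · exact (h1 0 hi).trans (le_rmax_left _ _)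
  · exact (h1 1 hi).trans (le_rmax_right _ _)

theorem vm_le {p z : C2} {r S : ℝ} (hz : z ∈ closedBall p r) (hS : 0 ≤ S) :
    vm p S z ≤ 2 * |Real.log r| + 2 := by
  have h1 : ∀ i, psi S (co p i) z ≤ 2 * |Real.log r| + 1 := by
    intro i
    have h2 : psi S (co p i) z ≤ max (2 * |Real.log r|) (-S) + 1 := by
      apply KT_le_of_log_le
      intro h3
      have h4 : 0 < ‖co p i z‖ := by
        rw [norm_pos_iff]
        exact Complex.normSq_pos.1 h3
      have h5 : nsq (co p i) z = ‖co p i z‖ ^ 2 := Complex.normSq_eq_norm_sq _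
      rw [h5, Real.log_pow]
      have h6 : ‖co p i z‖ ≤ r := (norm_co_le p z i).trans (by
        rwa [mem_closedBall, dist_eq_norm] at hz)
      have h7 := Real.log_le_log h4 h6
      have h8 := le_abs_self (Real.log r)
      push_cast
      linarith
    have h3 : max (2 * |Real.log r|) (-S) = 2 * |Real.log r| :=
      max_eq_left (by have := abs_nonneg (Real.log r); linarith)
    rw [h3] at h2
    exact h2
  have h2 := rmax_le (psi S (co p 0) z) (psi S (co p 1) z)
  have h3 : max (psi S (co p 0) z) (psi S (co p 1) z) ≤ 2 * |Real.log r| + 1 :=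
    max_le (h1 0) (h1 1)
  have h4 : vm p S z = rmax (psi S (co p 0) z) (psi S (co p 1) z) := rfl
  linarith

end Vale.Agent.P290.H561
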