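import Vale.Agent.P290.H561.IPHess

/-!
# P290 / H561: Stokes formula for the mixed discriminant, identity `∫ (ddb max(U,V))² = ∫ ddb U ddb V`
-/

set_option linter.unusedVariables false
set_option linter.unusedSectionVars false

open scoped ContDiff Topology ComplexConjugate ComplexOrder Matrix
open MeasureTheory Set Filter
open Vale.Agent.P267.FL (C2 dz dzb)

noncomputable section

namespace Vale.Agent.P290.H561

theorem integral_fderiv_zero {y : C2 → ℂ} (hy : ContDiff ℝ 1 y) (hc : HasCompactSupport y)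
    (v : C2) : ∫ z, fderiv ℝ y z v = 0 := by
  have hi : Integrable (fun z => fderiv ℝ y z v) := by
    refine Continuous.integrable_of_hasCompactSupport ?_ (hc.fderiv_apply ℝ v)
    exact (hy.continuous_fderiv (by simp)).clm_apply continuous_const
  have h1 := integral_mul_fderiv_eq_neg_fderiv_mul_of_integrable (μ := (volume : Measure C2))
    (f := fun _ : C2 => (1 : ℂ)) (g := y) (v := v) (by simp)
    (by simpa using hi) (by simpa using hy.continuous.integrable_of_hasCompactSupport hc)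
    (fun x _ => differentiableAt_const _) (fun x _ => (hy.differentiable (by simp)) x)
  simpa using h1

theorem integral_dzb_zero {y : C2 → ℂ} (hy : ContDiff ℝ 1 y) (hc : HasCompactSupport y)
    (j : Fin 2) : Integrable (dzb j y) ∧ ∫ z, dzb j y z = 0 := by
  have hi : ∀ v, Integrable (fun z => fderiv ℝ y z v) := by
    intro v
    refine Continuous.integrable_of_hasCompactSupport ?_ (hc.fderiv_apply ℝ v)
    exact (hy.continuous_fderiv (by simp)).clm_apply continuous_const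
  have h0 := integral_fderiv_zero hy hc
  unfold dzb
  refine ⟨((hi (Pi.single j 1)).add
    ((hi (Pi.single j Complex.I)).smul Complex.I)).smul (1 / 2 : ℂ), ?_⟩
  have h1 := integral_add (hi (Pi.single j 1)) ((hi (Pi.single j Complex.I)).smul Complex.I)
  simp only [Pi.smul_apply] at h1
  rw [integral_smul, h1, integral_smul, h0, h0]
  simp

/-- continuous on an open set and `0` off a compact subset: integrable -/
theorem intOn {E : Type*} [NormedAddCommGroup E] {B K : Set C2} (hB : IsOpen B) (hK : IsCompact K)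
    (hKB : K ⊆ B) {φ : C2 → E} (hc : ContinuousOn φ B) (h0 : ∀ z ∈ B \ K, φ z = 0) :
    IntegrableOn φ B :=
  ((hc.mono hKB).integrableOn_compact hK).of_forall_sdiff_eq_zero hB.measurableSet h0

/-- first component of the primitive -/
def Y0 (a b : C2 → ℝ) (z : C2) : ℂ := D a 0 z * H b z 1 1 - D a 1 z * H b z 0 1

/-- second component of the primitive -/
def Y1 (a b : C2 → ℝ) (z : C2) : ℂ := D a 1 z * H b z 0 0 - D a 0 z * H b z 1 0

theorem dzb_D {a : C2 → ℝ} {z : C2} (ha : ContDiffAt ℝ ∞ a z) (i j : Fin 2) :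
    dzb j (D a i) z = H a z i j := by
  have h2 : (2 : WithTop ℕ∞) ≤ ∞ := by norm_cast
  exact (Vale.Agent.P267.FL.dz_dzb_comm ((cx_contDiffAt ha).of_le h2) i j).symm

theorem dzb_H {b : C2 → ℝ} {z : C2} (hb : ContDiffAt ℝ ∞ b z) (i : Fin 2) :
    dzb 0 (fun y => H b y i 1) z = dzb 1 (fun y => H b y i 0) z := by
  have h2 : (2 : WithTop ℕ∞) ≤ ∞ := by norm_cast
  have e1 : dzb 0 (fun y => H b y i 1) z = dz i (dzb 0 (Db b 1)) z :=
    (Vale.Agent.P267.FL.dz_dzb_comm ((Db_contDiffAt hb 1).of_le h2) i 0).symm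
  have e2 : dzb 1 (fun y => H b y i 0) z = dz i (dzb 1 (Db b 0)) z :=
    (Vale.Agent.P267.FL.dz_dzb_comm ((Db_contDiffAt hb 0).of_le h2) i 1).symm
  rw [e1, e2]
  apply Vale.Agent.P267.FL.dz_congr
  filter_upwards [ContDiffAt.evs hb 2] with y hy
  exact Vale.Agent.P267.FL.dzb_dzb_comm (cx_contDiffAt hy) 0 1

theorem Y0_contDiffAt {a b : C2 → ℝ} {z : C2} (ha : ContDiffAt ℝ ∞ a z)
    (hb : ContDiffAt ℝ ∞ b z) : ContDiffAt ℝ ∞ (Y0 a b) z :=
  ((D_contDiffAt ha 0).mul (H_contDiffAt hb 1 1)).sub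
    ((D_contDiffAt ha 1).mul (H_contDiffAt hb 0 1))

theorem Y1_contDiffAt {a b : C2 → ℝ} {z : C2} (ha : ContDiffAt ℝ ∞ a z)
    (hb : ContDiffAt ℝ ∞ b z) : ContDiffAt ℝ ∞ (Y1 a b) z :=
  ((D_contDiffAt ha 1).mul (H_contDiffAt hb 0 0)).sub
    ((D_contDiffAt ha 0).mul (H_contDiffAt hb 1 0))

theorem div_Y {a b : C2 → ℝ} {z : C2} (ha : ContDiffAt ℝ ∞ a z) (hb : ContDiffAt ℝ ∞ b z) :
    dzb 0 (Y0 a b) z + dzb 1 (Y1 a b) z = mxd (H a z) (H b z) := by
  have hD : ∀ i, DifferentiableAt ℝ (D a i) z := fun i => diffAtC (D_contDiffAt ha i)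
  have hH : ∀ i j, DifferentiableAt ℝ (fun y => H b y i j) z := fun i j =>
    diffAtC (H_contDiffAt hb i j)
  unfold Y0 Y1
  rw [Vale.Agent.P267.FL.dzb_sub ((hD 0).fun_mul (hH 1 1)) ((hD 1).fun_mul (hH 0 1)),
    Vale.Agent.P267.FL.dzb_sub ((hD 1).fun_mul (hH 0 0)) ((hD 0).fun_mul (hH 1 0)),
    Vale.Agent.P267.FL.dzb_mul (hD 0) (hH 1 1), Vale.Agent.P267.FL.dzb_mul (hD 1) (hH 0 1),
    Vale.Agent.P267.FL.dzb_mul (hD 1) (hH 0 0), Vale.Agent.P267.FL.dzb_mul (hD 0) (hH 1 0),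
    dzb_D ha, dzb_D ha, dzb_D ha, dzb_D ha, dzb_H hb, dzb_H hb]
  unfold mxd
  ring

section ind

variable {B K : Set C2} {E : Type*} [NormedAddCommGroup E] [NormedSpace ℝ E]

theorem ind_ev_in (hB : IsOpen B) {φ : C2 → E} {z : C2} (hz : z ∈ B) :
    B.indicator φ =ᶠ[𝓝 z] φ := by
  filter_upwards [hB.mem_nhds hz] with y hy
  exact indicator_of_mem hy φ

theorem ind_ev_out (hK : IsCompact K) (hKB : K ⊆ B) {φ : C2 → E} (h0 : ∀ z ∈ B \ K, φ z = 0)
    {z : C2} (hz : z ∉ B) : B.indicator φ =ᶠ[𝓝 z] fun _ => 0 := by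
  have h1 : Kᶜ ∈ 𝓝 z := hK.isClosed.isOpen_compl.mem_nhds fun h => hz (hKB h)
  filter_upwards [h1] with y hy
  by_cases hyB : y ∈ B
  · rw [indicator_of_mem hyB]
    exact h0 y ⟨hyB, hy⟩
  · exact indicator_of_notMem hyB φ

theorem ind_contDiff (hB : IsOpen B) (hK : IsCompact K) (hKB : K ⊆ B) {φ : C2 → E}
    (hφ : ∀ z ∈ B, ContDiffAt ℝ ∞ φ z) (h0 : ∀ z ∈ B \ K, φ z = 0) :
    ContDiff ℝ ∞ (B.indicator φ) := by
  rw [contDiff_iff_contDiffAt]
  intro z
  by_cases hz : z ∈ B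
  · exact (hφ z hz).congr_of_eventuallyEq (ind_ev_in hB hz)
  · exact contDiffAt_const.congr_of_eventuallyEq (ind_ev_out hK hKB h0 hz)

theorem ind_compact (hK : IsCompact K) {φ : C2 → E}
    (h0 : ∀ z ∈ B \ K, φ z = 0) : HasCompactSupport (B.indicator φ) := by
  refine HasCompactSupport.of_support_subset_isCompact hK fun z hz => ?_
  by_contra h
  apply hz
  by_cases hyB : z ∈ B
  · rw [indicator_of_mem hyB]
    exact h0 z ⟨hyB, h⟩
  · exact indicator_of_notMem hyB φ

end ind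

theorem setInt_dzb {B K : Set C2} (hB : IsOpen B) (hK : IsCompact K) (hKB : K ⊆ B) {φ : C2 → ℂ}
    (hφ : ∀ z ∈ B, ContDiffAt ℝ ∞ φ z) (h0 : ∀ z ∈ B \ K, φ z = 0) (j : Fin 2) :
    IntegrableOn (dzb j φ) B ∧ ∫ z in B, dzb j φ z = 0 := by
  have h1 := ind_contDiff hB hK hKB hφ h0
  obtain ⟨hi, h2⟩ := integral_dzb_zero (h1.of_le one_le_inf) (ind_compact (B := B) hK h0) j
  have h3 : ∀ z ∈ B, dzb j (B.indicator φ) z = dzb j φ z := fun z hz =>
    Vale.Agent.P267.FL.dzb_congr (ind_ev_in hB hz) j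
  have h4 : ∀ z, z ∉ B → dzb j (B.indicator φ) z = 0 := by
    intro z hz
    rw [Vale.Agent.P267.FL.dzb_congr (ind_ev_out hK hKB h0 hz) j]
    simp
  constructor
  · exact hi.integrableOn.congr_fun h3 hB.measurableSet
  · rw [← h2, ← setIntegral_eq_integral_of_forall_compl_eq_zero h4]
    exact setIntegral_congr_fun hB.measurableSet fun z hz => (h3 z hz).symm

/-- **Stokes**: the integral of `mx a b` vanishes if the primitive vanishes near the boundary -/
theorem stokes {B K : Set C2} (hB : IsOpen B) (hK : IsCompact K) (hKB : K ⊆ B) {a b : C2 → ℝ}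
    (ha : ∀ z ∈ B, ContDiffAt ℝ ∞ a z) (hb : ∀ z ∈ B, ContDiffAt ℝ ∞ b z)
    (h0 : ∀ z ∈ B \ K, Y0 a b z = 0 ∧ Y1 a b z = 0) :
    IntegrableOn (mx a b) B ∧ ∫ z in B, mx a b z = 0 := by
  obtain ⟨i0, e0⟩ := setInt_dzb hB hK hKB (φ := Y0 a b)
    (fun z hz => Y0_contDiffAt (ha z hz) (hb z hz)) (fun z hz => (h0 z hz).1) 0
  obtain ⟨i1, e1⟩ := setInt_dzb hB hK hKB (φ := Y1 a b)
    (fun z hz => Y1_contDiffAt (ha z hz) (hb z hz)) (fun z hz => (h0 z hz).2) 1
  have h1 : ∀ z ∈ B, (dzb 0 (Y0 a b) z + dzb 1 (Y1 a b) z).re = mx a b z := by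
    intro z hz
    rw [div_Y (ha z hz) (hb z hz)]
    rfl
  have hi : Integrable (fun z => dzb 0 (Y0 a b) z + dzb 1 (Y1 a b) z) (volume.restrict B) :=
    i0.add i1
  constructor
  · have h2 : IntegrableOn (fun z => (dzb 0 (Y0 a b) z + dzb 1 (Y1 a b) z).re) B :=
      Complex.reCLM.integrable_comp hi
    exact h2.congr_fun h1 hB.measurableSet
  · rw [← setIntegral_congr_fun hB.measurableSet h1]
    have h2 := Complex.reCLM.integral_comp_comm hi
    simp only [Complex.reCLM_apply] at h2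
    rw [h2, integral_add i0 i1, e0, e1]
    simp

theorem Y_of_D {a b : C2 → ℝ} {z : C2} (h : a =ᶠ[𝓝 z] fun _ => 0) : Y0 a b z = 0 ∧ Y1 a b z = 0 := by
  have h1 : ∀ i, D a i z = 0 := by
    intro i
    rw [D_congr h]
    exact (Vale.Agent.P267.FL.dz_congr (f := fun y : C2 => (((fun _ => 0 : C2 → ℝ) y : ℝ) : ℂ))
      (g := fun _ => 0) (Eventually.of_forall fun y => by simp) i).trans (by simp)
  simp [Y0, Y1, h1]

theorem Y_of_H {a b : C2 → ℝ} {z : C2} (h : H b z = 0) : Y0 a b z = 0 ∧ Y1 a b z = 0 := by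
  simp [Y0, Y1, h]

theorem mx_self_sub {a b : C2 → ℝ} {z : C2} (ha : ContDiffAt ℝ ∞ a z) (hb : ContDiffAt ℝ ∞ b z) :
    mx (fun y => a y - b y) a z + mx (fun y => a y - b y) b z = mx a a z - mx b b z := by
  unfold mx
  rw [H_sub ha hb, mxd_sub_left, mxd_sub_left, mxd_comm (H b z) (H a z)]
  simp only [Complex.sub_re]
  ring

/-- two functions which agree near the boundary have the same Monge-Ampere mass -/
theorem mass_congr {B K : Set C2} (hB : IsOpen B) (hK : IsCompact K) (hKB : K ⊆ B) {a b : C2 → ℝ}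
    (ha : ∀ z ∈ B, ContDiffAt ℝ ∞ a z) (hb : ∀ z ∈ B, ContDiffAt ℝ ∞ b z)
    (h0 : ∀ z ∈ B \ K, a =ᶠ[𝓝 z] b) (hi : IntegrableOn (mx b b) B) :
    IntegrableOn (mx a a) B ∧ ∫ z in B, mx a a z = ∫ z in B, mx b b z := by
  have h1 : ∀ z ∈ B \ K, (fun y => a y - b y) =ᶠ[𝓝 z] fun _ => 0 := by
    intro z hz
    filter_upwards [h0 z hz] with y hy
    rw [hy, sub_self]
  obtain ⟨j1, e1⟩ := stokes hB hK hKB (a := fun y => a y - b y) (b := a)
    (fun z hz => (ha z hz).sub (hb z hz)) ha (fun z hz => Y_of_D (h1 z hz))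
  obtain ⟨j2, e2⟩ := stokes hB hK hKB (a := fun y => a y - b y) (b := b)
    (fun z hz => (ha z hz).sub (hb z hz)) hb (fun z hz => Y_of_D (h1 z hz))
  have h2 : ∀ z ∈ B, mx (fun y => a y - b y) a z + mx (fun y => a y - b y) b z + mx b b z =
      mx a a z := by
    intro z hz
    have := mx_self_sub (ha z hz) (hb z hz)
    linarith
  constructor
  · exact ((j1.add j2).add hi).congr_fun h2 hB.measurableSet
  · rw [← setIntegral_congr_fun hB.measurableSet h2]
    have h3 := integral_add (j1.add j2) hi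
    have h4 := integral_add j1 j2
    simp only [Pi.add_apply] at h3 h4
    rw [h3, h4, e1, e2]
    ring

theorem rM_ev_right {U V : C2 → ℝ} {z : C2} (hU : ContinuousAt U z) (hV : ContinuousAt V z)
    (h : U z + 1 < V z) : rM U V =ᶠ[𝓝 z] V := by
  filter_upwards [(hU.add continuousAt_const).eventually_lt hV h] with y hy
  exact rmax_right (le_of_lt hy)

theorem rM_ev_left {U V : C2 → ℝ} {z : C2} (hU : ContinuousAt U z) (hV : ContinuousAt V z)
    (h : V z + 1 < U z) : rM U V =ᶠ[𝓝 z] U := by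
  filter_upwards [(hV.add continuousAt_const).eventually_lt hU h] with y hy
  exact rmax_left (le_of_lt hy)

theorem D_rM {U V : C2 → ℝ} {z : C2} (hU : ContDiffAt ℝ ∞ U z) (hV : ContDiffAt ℝ ∞ V z)
    (i : Fin 2) : D (rM U V) i z = D V i z + (sg (U z - V z) : ℂ) * (D U i z - D V i z) := by
  have h1 : rM U V = fun y => V y + kap (U y - V y) := rfl
  have h2 : DifferentiableAt ℝ (fun y => U y - V y) z := (diffAt hU).sub (diffAt hV)
  have h3 : DifferentiableAt ℝ (fun y => kap (U y - V y)) z :=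
    ((kap_hasDerivAt _).differentiableAt).comp z h2
  rw [h1, D_add (diffAt hV) h3, D_comp (h := kap) (kap_hasDerivAt _).differentiableAt h2,
    D_sub (diffAt hU) (diffAt hV), kap_deriv]

/-- the conditions near the boundary -/
def Zone (U V : C2 → ℝ) (z : C2) : Prop :=
  (U z + 1 < V z ∧ H V z = 0) ∨ (V z + 1 < U z ∧ H U z = 0) ∨ (H U z = 0 ∧ H V z = 0)

theorem Zone.mx_zero {U V : C2 → ℝ} {z : C2} (h : Zone U V z) : mx U V z = 0 := by
  unfold mx
  rcases h with h | h | h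
  · rw [h.2, mxd_zero_right, Complex.zero_re]
  · rw [h.2, mxd_zero_left, Complex.zero_re]
  · rw [h.2, mxd_zero_right, Complex.zero_re]

theorem contOn_mx {B : Set C2} {U V : C2 → ℝ} (hU : ∀ z ∈ B, ContDiffAt ℝ ∞ U z)
    (hV : ∀ z ∈ B, ContDiffAt ℝ ∞ V z) : ContinuousOn (mx U V) B := fun z hz =>
  (mx_contDiffAt (hU z hz) (hV z hz)).continuousAt.continuousWithinAt

/-- **the mass of the regularised maximum is the mixed mass** -/
theorem main_id {B K : Set C2} (hB : IsOpen B) (hK : IsCompact K) (hKB : K ⊆ B) {U V : C2 → ℝ}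
    (hU : ∀ z ∈ B, ContDiffAt ℝ ∞ U z) (hV : ∀ z ∈ B, ContDiffAt ℝ ∞ V z)
    (h : ∀ z ∈ B \ K, Zone U V z) :
    IntegrableOn (mx U V) B ∧ IntegrableOn (mx (rM U V) (rM U V)) B ∧
      ∫ z in B, mx (rM U V) (rM U V) z = ∫ z in B, mx U V z := by
  set W := rM U V with hW
  have hWs : ∀ z ∈ B, ContDiffAt ℝ ∞ W z := fun z hz => rM_contDiffAt (hU z hz) (hV z hz)
  have iUV : IntegrableOn (mx U V) B :=
    intOn hB hK hKB (contOn_mx hU hV) fun z hz => (h z hz).mx_zero
  have hR : ∀ z ∈ B, U z + 1 < V z → (fun y => W y - V y) =ᶠ[𝓝 z] fun _ => 0 := by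
    intro z hz h1
    filter_upwards [rM_ev_right (hU z hz).continuousAt (hV z hz).continuousAt h1] with y hy
    rw [hW, hy, sub_self]
  have hL : ∀ z ∈ B, V z + 1 < U z → (fun y => W y - U y) =ᶠ[𝓝 z] fun _ => 0 := by
    intro z hz h1
    filter_upwards [rM_ev_left (hU z hz).continuousAt (hV z hz).continuousAt h1] with y hy
    rw [hW, hy, sub_self]
  have sa : ∀ z ∈ B, ContDiffAt ℝ ∞ (fun y => W y - U y) z := fun z hz =>
    (hWs z hz).sub (hU z hz)
  have sb : ∀ z ∈ B, ContDiffAt ℝ ∞ (fun y => W y - V y) z := fun z hz =>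
    (hWs z hz).sub (hV z hz)
  obtain ⟨j1, e1⟩ := stokes hB hK hKB (a := fun y => W y - U y) (b := fun y => W y - V y)
    sa sb (by
      intro z hz
      rcases h z hz with h1 | h1 | h1
      · apply Y_of_H
        rw [H_congr (hR z hz.1 h1.1), H_const]
      · exact Y_of_D (hL z hz.1 h1.1)
      · have e1 : ∀ i, D (fun y => W y - U y) i z =
            (sg (U z - V z) - 1 : ℂ) * D (fun y => U y - V y) i z := by
          intro i
          rw [D_sub (diffAt (hWs z hz.1)) (diffAt (hU z hz.1)),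
            D_sub (diffAt (hU z hz.1)) (diffAt (hV z hz.1)), D_rM (hU z hz.1) (hV z hz.1)]
          ring
        have e2 : H (fun y => W y - V y) z =
            (sg' (U z - V z) : ℂ) • R1 (fun y => U y - V y) (fun y => U y - V y) z := by
          rw [H_sub (hWs z hz.1) (hV z hz.1), H_rM (hU z hz.1) (hV z hz.1), h1.1, h1.2]
          simp
        simp only [Y0, Y1, e1, e2, Matrix.smul_apply, smul_eq_mul, R1_apply]
        constructor <;> ring)
  obtain ⟨j2, e2⟩ := stokes hB hK hKB (a := fun y => W y - V y) (b := U) sb hU (by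
      intro z hz
      rcases h z hz with h1 | h1 | h1
      · exact Y_of_D (hR z hz.1 h1.1)
      · exact Y_of_H h1.2
      · exact Y_of_H h1.1)
  obtain ⟨j3, e3⟩ := stokes hB hK hKB (a := fun y => W y - U y) (b := V) sa hV (by
      intro z hz
      rcases h z hz with h1 | h1 | h1
      · exact Y_of_H h1.2
      · exact Y_of_D (hL z hz.1 h1.1)
      · exact Y_of_H h1.2)
  have key : ∀ z ∈ B, mx (fun y => W y - U y) (fun y => W y - V y) z +
      mx (fun y => W y - V y) U z + mx (fun y => W y - U y) V z + mx U V z = mx W W z := by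
    intro z hz
    unfold mx
    rw [H_sub (hWs z hz) (hU z hz), H_sub (hWs z hz) (hV z hz)]
    simp only [mxd_sub_left, mxd_sub_right, Complex.sub_re]
    rw [mxd_comm (H V z) (H U z), mxd_comm (H U z) (H W z)]
    ring
  have i3 := ((j1.add j2).add j3).add iUV
  refine ⟨iUV, i3.congr_fun key hB.measurableSet, ?_⟩
  rw [← setIntegral_congr_fun hB.measurableSet key]
  have f1 := integral_add ((j1.add j2).add j3) iUV
  have f2 := integral_add (j1.add j2) j3
  have f3 := integral_add j1 j2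
  simp only [Pi.add_apply] at f1 f2 f3
  rw [f1, f2, f3, e1, e2, e3]
  ring

end Vale.Agent.P290.H561
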